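import Vale.Agent.P088.R2.H558.DM.CfB
import Vale.Agent.P088.R2.H380.DM.Cac

/-!
# P088 SOLV, row 6: the system of the tangential difference quotients
-/

open MeasureTheory Set Filter Topology
open scoped ContDiff

noncomputable section

namespace Vale.Agent.P088.R2.H558.DM

open Vale.Agent.P088.DC

variable {n : ℕ} [NeZero n]

omit [NeZero n] in
theorem lin_sq {κ : Type*} [Fintype κ] {M : ℝ} (c b : κ → ℝ) (hc : ∀ k, |c k| ≤ M) :
    (∑ k, c k * b k) ^ 2 ≤ Fintype.card κ * M ^ 2 * ∑ k, b k ^ 2 := by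
  have h1 : (∑ k, c k * b k) ^ 2 ≤ Fintype.card κ * ∑ k, (c k * b k) ^ 2 := by
    have := sq_sum_le_card_mul_sum_sq (s := (Finset.univ : Finset κ)) (f := fun k => c k * b k)
    simpa using this
  refine h1.trans ?_
  rw [mul_assoc]
  refine mul_le_mul_of_nonneg_left ?_ (Nat.cast_nonneg _)
  rw [Finset.mul_sum]
  refine Finset.sum_le_sum fun k _ => ?_
  rw [mul_pow]
  refine mul_le_mul_of_nonneg_right ?_ (sq_nonneg _)
  rw [← sq_abs]
  exact pow_le_pow_left₀ (abs_nonneg _) (hc k) 2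

omit [NeZero n] in
theorem fin5 {x1 x2 x3 x4 x5 K SP SQ SW ST : ℝ} (d1 : x1 ^ 2 ≤ K * SP) (d2 : x2 ^ 2 ≤ K * SQ)
    (d3 : x3 ^ 2 ≤ K * SW) (d4 : x4 ^ 2 ≤ K * ST) (d5 : x5 ^ 2 ≤ K) :
    (x1 + x2 + x3 + x4 + x5) ^ 2 ≤ 5 * K * (1 + SP + SQ + SW + ST) := by
  nlinarith [sq_nonneg (x1 - x2), sq_nonneg (x1 - x3), sq_nonneg (x1 - x4),
    sq_nonneg (x1 - x5), sq_nonneg (x2 - x3), sq_nonneg (x2 - x4), sq_nonneg (x2 - x5),
    sq_nonneg (x3 - x4), sq_nonneg (x3 - x5), sq_nonneg (x4 - x5)]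

omit [NeZero n] in
theorem split5 {h : ℝ} {x1 x2 x3 y1 y2 y3 u1 u2 v1 v2 : ℝ} (s1 : (x1 - y1) / h = u1 + u2)
    (s2 : (x2 - y2) / h = v1 + v2) :
    ((x1 + x2 + x3) - (y1 + y2 + y3)) / h = u1 + u2 + v1 + v2 + (x3 - y3) / h := by
  have : ((x1 + x2 + x3) - (y1 + y2 + y3)) / h =
      (x1 - y1) / h + (x2 - y2) / h + (x3 - y3) / h := by ring
  rw [this, s1, s2]
  ring

theorem cf_add {r : ℝ} {f g : En n → ℝ} (hf : Cf r f) (hg : Cf r g) :
    Cf r (fun y => f y + g y) := by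
  obtain ⟨F, hF, h1⟩ := hf
  obtain ⟨G, hG, h2⟩ := hg
  exact ⟨fun y => F y + G y, hF.add hG, fun y hy => by simp only [h1 hy, h2 hy]⟩

theorem cf_const_mul {r : ℝ} {f : En n → ℝ} (c : ℝ) (hf : Cf r f) : Cf r (fun y => c * f y) := by
  obtain ⟨F, hF, h1⟩ := hf
  exact ⟨fun y => c * F y, contDiffOn_const.mul hF, fun y hy => by simp only [h1 hy]⟩

theorem cf_zero {r : ℝ} : Cf r (fun _ : En n => (0 : ℝ)) :=
  ⟨fun _ => 0, contDiffOn_const, fun _ _ => rfl⟩

theorem cf_sum {r : ℝ} {κ : Type*} (s : Finset κ) {f : κ → En n → ℝ} (hf : ∀ k ∈ s, Cf r (f k)) :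
    Cf r (fun y => ∑ k ∈ s, f k y) := by
  classical
  induction s using Finset.induction_on with
  | empty => simpa using cf_zero
  | insert a s ha ih =>
    simp only [Finset.sum_insert ha]
    exact cf_add (hf a (Finset.mem_insert_self _ _))
      (ih fun k hk => hf k (Finset.mem_insert_of_mem hk))

/-- common bounds for a finite family -/
theorem cf_fam {r r' : ℝ} (hr : r' < r) {κ : Type*} [Fintype κ] (f : κ → En n → ℝ)
    (hf : ∀ k, Cf r (f k)) : ∃ M : ℝ, 0 ≤ M ∧ ∀ k, (∀ y ∈ (Uh r' : Set (En n)), |f k y| ≤ M) ∧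
      ∀ (y : En n) (h : ℝ) (t : Fin n), h ≠ 0 → y ∈ (Uh r' : Set (En n)) →
      y + h • ee t ∈ (Uh r' : Set (En n)) → |(f k (y + h • ee t) - f k y) / h| ≤ M := by
  choose M hM0 hM using fun k => (hf k).bdd hr
  choose M' hM0' hM' using fun k => (hf k).dq hr
  have s1 : 0 ≤ ∑ k, M k := Finset.sum_nonneg fun k _ => hM0 k
  have s2 : 0 ≤ ∑ k, M' k := Finset.sum_nonneg fun k _ => hM0' k
  refine ⟨∑ k, M k + ∑ k, M' k, add_nonneg s1 s2, fun k => ⟨fun y hy => ?_, ?_⟩⟩
  · have : M k ≤ ∑ k, M k := Finset.single_le_sum (fun k _ => hM0 k) (Finset.mem_univ k)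
    exact (hM k y hy).trans (this.trans (le_add_of_nonneg_right s2))
  · intro y h t hh hy hy'
    have : M' k ≤ ∑ k, M' k := Finset.single_le_sum (fun k _ => hM0' k) (Finset.mem_univ k)
    exact (hM' k y h t hh hy hy').trans (this.trans (le_add_of_nonneg_left s1))

theorem shift_mem {r r' h : ℝ} (h0 : 0 ≤ h) (hr : r' + h ≤ r) {t : Fin n} (ht : t ≠ 0)
    {y : En n} (hy : y ∈ (Uh r' : Set (En n))) : y + h • ee t ∈ (Uh r : Set (En n)) := by
  refine ⟨?_, fun i => ?_⟩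
  · have : (y + h • ee t) 0 = y 0 := by
      simp [Ne.symm ht]
    rw [this]
    exact hy.1
  · have h1 : (y + h • ee t) i = y i + h * (ee t : En n) i := by simp
    have h2 : |(ee t : En n) i| ≤ 1 := by
      by_cases hi : i = t
      · subst hi; simp
      · simp [hi]
    rw [h1]
    calc |y i + h * (ee t : En n) i| ≤ |y i| + |h * (ee t : En n) i| := abs_add_le _ _
      _ ≤ |y i| + h := by
          rw [abs_mul, abs_of_nonneg h0]
          nlinarith [abs_nonneg ((ee t : En n) i)]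
      _ < r := by linarith [hy.2 i]

omit [NeZero n] in
theorem dd_shift (f : En n → ℝ) (v : En n) (i : Fin n) (y : En n) :
    dd i (fun z => f (z + v)) y = dd i f (y + v) := by
  unfold dd
  rw [fderiv_comp_add_right]

omit [NeZero n] in
theorem dd_dq {f : En n → ℝ} {v y : En n} (h : ℝ) (h1 : DifferentiableAt ℝ f y)
    (h2 : DifferentiableAt ℝ f (y + v)) (i : Fin n) :
    dd i (fun z => (f (z + v) - f z) / h) y = (dd i f (y + v) - dd i f y) / h := by
  have h2' : DifferentiableAt ℝ (fun z => f (z + v)) y := by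
    have := (differentiableAt_id (𝕜 := ℝ) (x := y)).add_const v
    exact DifferentiableAt.comp y (g := f) (f := fun z => z + v) h2 this
  have hd : HasFDerivAt (fun z => (f (z + v) - f z) / h)
      (h⁻¹ • (fderiv ℝ (fun z => f (z + v)) y - fderiv ℝ f y)) y := by
    have h3 := (h2'.hasFDerivAt.fun_sub h1.hasFDerivAt).fun_const_smul h⁻¹
    refine h3.congr_of_eventuallyEq (Filter.Eventually.of_forall fun z => ?_)
    simp [div_eq_inv_mul]
  unfold dd
  rw [hd.fderiv, fderiv_comp_add_right]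
  simp [div_eq_inv_mul]

/-- **the system of the difference quotients**: the hypotheses of `energy` -/
theorem dq_sys {ι : Type} [Fintype ι] {r r2 : ℝ} {a : Fin n → Fin n → En n → ℝ}
    {W : ι → En n → ℝ} (ha : Ell r a) (hW : Cl r a W) (h12 : r2 < r) :
    ∃ lam > 0, ∃ L : ℝ, 0 ≤ L ∧ ∀ (t : Fin n) (h : ℝ), t ≠ 0 → 0 < h → h < (r - r2) / 2 →
      (∀ α, ContDiffOn ℝ 1 (fun y => (W α (y + h • ee t) - W α y) / h) (Uh r2)) ∧
      (∀ i α, ContDiffOn ℝ 1 (fun y => ((∑ j, a i j (y + h • ee t) * dd j (W α) (y + h • ee t)) -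
        ∑ j, a i j y * dd j (W α) y) / h) (Uh r2)) ∧
      ContinuousOn (fun y => ∑ α, ∑ i, dd i (W α) y ^ 2) (Uh r2) ∧
      ContinuousOn (fun y => ∑ α, W α y ^ 2) (Uh r2) ∧
      (∀ α, ∀ y ∈ (Uh r2 : Set (En n)),
        ∑ i, dd i (fun y => ((∑ j, a i j (y + h • ee t) * dd j (W α) (y + h • ee t)) -
          ∑ j, a i j y * dd j (W α) y) / h) y =
        (∑ i, dd i (fun y => ∑ j, a i j y * dd j (W α) y) (y + h • ee t) -
          ∑ i, dd i (fun y => ∑ j, a i j y * dd j (W α) y) y) / h) ∧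
      (∀ y ∈ (Uh r2 : Set (En n)), ∀ α,
        lam * ∑ i, dd i (fun y => (W α (y + h • ee t) - W α y) / h) y ^ 2 ≤
        ∑ i, (((∑ j, a i j (y + h • ee t) * dd j (W α) (y + h • ee t)) -
          ∑ j, a i j y * dd j (W α) y) / h -
          ∑ j, ((a i j (y + h • ee t) - a i j y) / h) * dd j (W α) y) *
          dd i (fun y => (W α (y + h • ee t) - W α y) / h) y) ∧
      (∀ y ∈ (Uh r2 : Set (En n)), ∀ i α,
        (∑ j, ((a i j (y + h • ee t) - a i j y) / h) * dd j (W α) y) ^ 2 ≤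
          L * ∑ α, ∑ i, dd i (W α) y ^ 2) ∧
      (∀ y ∈ (Uh r2 : Set (En n)), ∀ i α,
        (((∑ j, a i j (y + h • ee t) * dd j (W α) (y + h • ee t)) -
          ∑ j, a i j y * dd j (W α) y) / h) ^ 2 ≤
        L * (∑ α, ∑ i, dd i (fun y => (W α (y + h • ee t) - W α y) / h) y ^ 2 +
          ∑ α, ∑ i, dd i (W α) y ^ 2)) ∧
      (∀ y ∈ (Uh r2 : Set (En n)), ∀ α,
        ((∑ i, dd i (fun y => ∑ j, a i j y * dd j (W α) y) (y + h • ee t) -
          ∑ i, dd i (fun y => ∑ j, a i j y * dd j (W α) y) y) / h) ^ 2 ≤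
        L * (1 + ∑ α, ∑ i, dd i (fun y => (W α (y + h • ee t) - W α y) / h) y ^ 2 +
          ∑ α, ∑ i, dd i (W α) y ^ 2 +
          ∑ α, ((W α (y + h • ee t) - W α y) / h) ^ 2 + ∑ α, W α y ^ 2)) := by
  classical
  obtain ⟨l, hl0, hl⟩ := ha.pos
  obtain ⟨B, C, F, hB, hC, hF, heq⟩ := hW.eqn
  set r3 : ℝ := (r + r2) / 2 with hr3
  have h23 : r2 < r3 := by rw [hr3]; linarith
  have h3r : r3 < r := by rw [hr3]; linarith
  -- coefficients of the divergence
  set e : Fin n → En n → ℝ := fun j y => ∑ i, dd i (a i j) y with he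
  have hecf : ∀ j, Cf r (e j) := fun j => cf_sum _ fun i _ => (ha.cf i j).ddF i
  set B' : ι → ι → Fin n → En n → ℝ := fun α β i y =>
    B α β i y + (if α = β then (1 : ℝ) else 0) * e i y with hB'
  have hB'cf : ∀ α β i, Cf r (B' α β i) := fun α β i =>
    cf_add (hB α β i) (cf_const_mul _ (hecf i))
  obtain ⟨Ma, hMa0, hMa⟩ := cf_fam h3r (fun p : Fin n × Fin n => a p.1 p.2)
    (fun p => ha.cf p.1 p.2)
  obtain ⟨Mb, hMb0, hMb⟩ := cf_fam h3r (fun p : (ι × ι) × Fin n => B' p.1.1 p.1.2 p.2)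
    (fun p => hB'cf _ _ _)
  obtain ⟨Mc, hMc0, hMc⟩ := cf_fam h3r (fun p : ι × ι => C p.1 p.2) (fun p => hC _ _)
  obtain ⟨Mf, hMf0, hMf⟩ := cf_fam h3r (fun p : ι => F p) (fun p => hF _)
  set M : ℝ := Ma + Mb + Mc + Mf with hM
  have hM0 : 0 ≤ M := by positivity
  have hMaM : Ma ≤ M := by rw [hM]; linarith
  have hMbM : Mb ≤ M := by rw [hM]; linarith
  have hMcM : Mc ≤ M := by rw [hM]; linarith
  have hMfM : Mf ≤ M := by rw [hM]; linarith
  set m : ℝ := (Fintype.card ι : ℝ) with hm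
  have hm0 : 0 ≤ m := by positivity
  have hn0 : (0 : ℝ) ≤ n := by positivity
  set L : ℝ := 5 * ((n + 1) * (m + 1)) * M ^ 2 with hL
  have hL0 : 0 ≤ L := by positivity
  refine ⟨l, hl0, L, hL0, ?_⟩
  intro t h ht hh hhr
  have hsh : ∀ y ∈ (Uh r2 : Set (En n)), y + h • ee t ∈ (Uh r3 : Set (En n)) := fun y hy =>
    shift_mem hh.le (by rw [hr3]; linarith) ht hy
  have hsh' : ∀ y ∈ (Uh r2 : Set (En n)), y + h • ee t ∈ (Uh r : Set (En n)) := fun y hy =>
    Uh_mono h3r.le (hsh y hy)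
  have hin : ∀ y ∈ (Uh r2 : Set (En n)), y ∈ (Uh r : Set (En n)) := fun y hy =>
    Uh_mono (by linarith) hy
  have hin3 : ∀ y ∈ (Uh r2 : Set (En n)), y ∈ (Uh r3 : Set (En n)) := fun y hy =>
    Uh_mono h23.le hy
  have hsW : ∀ α, ContDiffOn ℝ ∞ (W α) (Uh r) := hW.sm
  have hsdW : ∀ α j, ContDiffOn ℝ ∞ (dd j (W α)) (Uh r) := fun α j => by
    have h1 := (hsW α).fderiv_of_isOpen (Uh_open r) (m := ∞) (by simp)
    exact h1.clm_apply contDiffOn_const
  have hsG : ∀ i α, ContDiffOn ℝ ∞ (fun y => ∑ j, a i j y * dd j (W α) y) (Uh r) := fun i α =>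
    ContDiffOn.sum fun j _ => ((ha.cf i j).smoothOn).mul (hsdW α j)
  have hshift : ∀ {f : En n → ℝ}, ContDiffOn ℝ ∞ f (Uh r) →
      ContDiffOn ℝ 1 (fun y => (f (y + h • ee t) - f y) / h) (Uh r2) := by
    intro f hf
    have h1 : ContDiffOn ℝ 1 f (Uh r) := hf.of_le (by exact_mod_cast le_top)
    have h2 : ContDiffOn ℝ 1 (fun y => f (y + h • ee t)) (Uh r2) :=
      h1.comp (contDiff_id.add contDiff_const).contDiffOn hsh'
    exact (h2.sub (h1.mono fun y hy => hin y hy)).div_const h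
  have hdf : ∀ {f : En n → ℝ}, ContDiffOn ℝ ∞ f (Uh r) → ∀ y ∈ (Uh r : Set (En n)),
      DifferentiableAt ℝ f y := fun hf y hy =>
    (hf.differentiableOn (by simp)).differentiableAt ((Uh_open r).mem_nhds hy)
  -- the derivatives of the quotients
  have hp : ∀ y ∈ (Uh r2 : Set (En n)), ∀ i α,
      dd i (fun y => (W α (y + h • ee t) - W α y) / h) y =
        (dd i (W α) (y + h • ee t) - dd i (W α) y) / h := fun y hy i α =>
    dd_dq h (hdf (hsW α) y (hin y hy)) (hdf (hsW α) _ (hsh' y hy)) i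
  -- product rule
  have hprod : ∀ (f g f' g' : ℝ), (f' * g' - f * g) / h = f' * ((g' - g) / h) +
      ((f' - f) / h) * g := by
    intro f g f' g'
    field_simp
    ring
  have hX : ∀ y ∈ (Uh r2 : Set (En n)), ∀ i α,
      ((∑ j, a i j (y + h • ee t) * dd j (W α) (y + h • ee t)) -
          ∑ j, a i j y * dd j (W α) y) / h =
      ∑ j, a i j (y + h • ee t) * ((dd j (W α) (y + h • ee t) - dd j (W α) y) / h) +
        ∑ j, ((a i j (y + h • ee t) - a i j y) / h) * dd j (W α) y := by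
    intro y hy i α
    rw [← Finset.sum_sub_distrib, Finset.sum_div, ← Finset.sum_add_distrib]
    exact Finset.sum_congr rfl fun j _ => hprod _ _ _ _
  -- the divergence of the flux
  have hR : ∀ y ∈ (Uh r : Set (En n)), ∀ α,
      ∑ i, dd i (fun y => ∑ j, a i j y * dd j (W α) y) y =
        ∑ q : ι × Fin n, B' α q.1 q.2 y * dd q.2 (W q.1) y + ∑ β, C α β y * W β y + F α y := by
    intro y hy α
    have h1 : ∀ i, dd i (fun y => ∑ j, a i j y * dd j (W α) y) y =
        ∑ j, (dd i (a i j) y * dd j (W α) y + a i j y * dd i (dd j (W α)) y) := by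
      intro i
      have hs : HasFDerivAt (fun y => ∑ j, a i j y * dd j (W α) y)
          (∑ j, (a i j y • fderiv ℝ (dd j (W α)) y + dd j (W α) y • fderiv ℝ (a i j) y)) y :=
        HasFDerivAt.fun_sum fun j _ => (hdf (ha.cf i j).smoothOn y hy).hasFDerivAt.mul
          (hdf (hsdW α j) y hy).hasFDerivAt
      show fderiv ℝ (fun y => ∑ j, a i j y * dd j (W α) y) y (ee i) = _
      rw [hs.fderiv, _root_.sum_apply]
      refine Finset.sum_congr rfl fun j _ => ?_
      show a i j y * dd i (dd j (W α)) y + dd j (W α) y * dd i (a i j) y = _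
      ring
    have h2 := heq α y hy
    simp only [h1, Finset.sum_add_distrib]
    rw [h2]
    have h3 : ∑ i, ∑ j, dd i (a i j) y * dd j (W α) y = ∑ i, e i y * dd i (W α) y := by
      rw [Finset.sum_comm]
      refine Finset.sum_congr rfl fun j _ => ?_
      rw [he]
      simp only [Finset.sum_mul]
    have h4 : ∑ q : ι × Fin n, B' α q.1 q.2 y * dd q.2 (W q.1) y =
        ∑ i, ∑ β, B α β i y * dd i (W β) y + ∑ i, e i y * dd i (W α) y := by
      rw [Fintype.sum_prod_type, Finset.sum_comm, ← Finset.sum_add_distrib]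
      refine Finset.sum_congr rfl fun i _ => ?_
      simp only [hB', add_mul, Finset.sum_add_distrib]
      congr 1
      simp
    rw [h3, h4]
    ring
  refine ⟨fun α => hshift (hsW α), fun i α => hshift (hsG i α), ?_, ?_, ?_, ?_, ?_, ?_, ?_⟩
  · exact continuousOn_finsetSum _ fun α _ => continuousOn_finsetSum _ fun i _ =>
      (((hsdW α i).continuousOn.mono fun y hy => hin y hy)).pow 2
  · exact continuousOn_finsetSum _ fun α _ =>
      (((hsW α).continuousOn.mono fun y hy => hin y hy)).pow 2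
  · intro α y hy
    rw [← Finset.sum_sub_distrib, Finset.sum_div]
    refine Finset.sum_congr rfl fun i _ => ?_
    exact dd_dq h (hdf (hsG i α) y (hin y hy)) (hdf (hsG i α) _ (hsh' y hy)) i
  · intro y hy α
    have h1 := hl _ (hsh' y hy) (fun i => (dd i (W α) (y + h • ee t) - dd i (W α) y) / h)
    simp only [hp y hy, hX y hy, add_sub_cancel_right]
    refine h1.trans (le_of_eq ?_)
    refine Finset.sum_congr rfl fun i _ => ?_
    rw [Finset.sum_mul]
    exact Finset.sum_congr rfl fun j _ => by ring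
  · intro y hy i α
    have h1 := lin_sq (M := M) (fun j => (a i j (y + h • ee t) - a i j y) / h)
      (fun j => dd j (W α) y) (fun j => ((hMa (i, j)).2 y h t hh.ne' (hin3 y hy)
        (hsh y hy)).trans hMaM)
    refine h1.trans ?_
    have h2 : ∑ j, dd j (W α) y ^ 2 ≤ ∑ α, ∑ i, dd i (W α) y ^ 2 :=
      Finset.single_le_sum (f := fun α => ∑ j, dd j (W α) y ^ 2)
        (fun α _ => Finset.sum_nonneg fun _ _ => sq_nonneg _) (Finset.mem_univ α)
    refine mul_le_mul ?_ h2 (Finset.sum_nonneg fun _ _ => sq_nonneg _) hL0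
    rw [Fintype.card_fin, hL]
    refine mul_le_mul_of_nonneg_right ?_ (sq_nonneg _)
    nlinarith [mul_nonneg hn0 hm0]
  · intro y hy i α
    rw [hX y hy]
    simp only [hp y hy]
    have h1 := lin_sq (M := M) (fun j => a i j (y + h • ee t))
      (fun j => (dd j (W α) (y + h • ee t) - dd j (W α) y) / h)
      (fun j => ((hMa (i, j)).1 _ (hsh y hy)).trans hMaM)
    have h2 := lin_sq (M := M) (fun j => (a i j (y + h • ee t) - a i j y) / h)
      (fun j => dd j (W α) y) (fun j => ((hMa (i, j)).2 y h t hh.ne' (hin3 y hy)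
        (hsh y hy)).trans hMaM)
    have h3 : ∑ j, dd j (W α) y ^ 2 ≤ ∑ α, ∑ i, dd i (W α) y ^ 2 :=
      Finset.single_le_sum (f := fun α => ∑ j, dd j (W α) y ^ 2)
        (fun α _ => Finset.sum_nonneg fun _ _ => sq_nonneg _) (Finset.mem_univ α)
    have h4 : ∑ j, ((dd j (W α) (y + h • ee t) - dd j (W α) y) / h) ^ 2 ≤
        ∑ α, ∑ i, ((dd i (W α) (y + h • ee t) - dd i (W α) y) / h) ^ 2 :=
      Finset.single_le_sum
        (f := fun α => ∑ j, ((dd j (W α) (y + h • ee t) - dd j (W α) y) / h) ^ 2)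
        (fun α _ => Finset.sum_nonneg fun _ _ => sq_nonneg _) (Finset.mem_univ α)
    rw [Fintype.card_fin] at h1 h2
    have h5 : (2 : ℝ) * (n * M ^ 2) ≤ L := by
      rw [hL, ← mul_assoc]
      refine mul_le_mul_of_nonneg_right ?_ (sq_nonneg _)
      nlinarith [mul_nonneg hn0 hm0]
    have hnM : 0 ≤ (n : ℝ) * M ^ 2 := by positivity
    refine (add_sq_le).trans ?_
    have h6 := h1.trans (mul_le_mul_of_nonneg_left h4 hnM)
    have h7 := h2.trans (mul_le_mul_of_nonneg_left h3 hnM)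
    have h8 : 0 ≤ ∑ α, ∑ i, ((dd i (W α) (y + h • ee t) - dd i (W α) y) / h) ^ 2 +
        ∑ α, ∑ i, dd i (W α) y ^ 2 := add_nonneg
      (Finset.sum_nonneg fun _ _ => Finset.sum_nonneg fun _ _ => sq_nonneg _)
      (Finset.sum_nonneg fun _ _ => Finset.sum_nonneg fun _ _ => sq_nonneg _)
    have h9 := mul_le_mul_of_nonneg_right h5 h8
    linarith
  · intro y hy α
    rw [hR _ (hsh' y hy), hR _ (hin y hy)]
    simp only [hp y hy]
    set SP : ℝ := ∑ α, ∑ i, ((dd i (W α) (y + h • ee t) - dd i (W α) y) / h) ^ 2 with hSP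
    set SQ : ℝ := ∑ α, ∑ i, dd i (W α) y ^ 2 with hSQ
    set SW : ℝ := ∑ α, ((W α (y + h • ee t) - W α y) / h) ^ 2 with hSW
    set ST : ℝ := ∑ α, W α y ^ 2 with hST
    have hSP0 : 0 ≤ SP := Finset.sum_nonneg fun _ _ => Finset.sum_nonneg fun _ _ => sq_nonneg _
    have hSQ0 : 0 ≤ SQ := Finset.sum_nonneg fun _ _ => Finset.sum_nonneg fun _ _ => sq_nonneg _
    have hSW0 : 0 ≤ SW := Finset.sum_nonneg fun _ _ => sq_nonneg _
    have hST0 : 0 ≤ ST := Finset.sum_nonneg fun _ _ => sq_nonneg _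
    have k1 := lin_sq (M := M) (fun q : ι × Fin n => B' α q.1 q.2 (y + h • ee t))
      (fun q : ι × Fin n => (dd q.2 (W q.1) (y + h • ee t) - dd q.2 (W q.1) y) / h)
      (fun q => ((hMb ((α, q.1), q.2)).1 _ (hsh y hy)).trans hMbM)
    have k2 := lin_sq (M := M)
      (fun q : ι × Fin n => (B' α q.1 q.2 (y + h • ee t) - B' α q.1 q.2 y) / h)
      (fun q : ι × Fin n => dd q.2 (W q.1) y)
      (fun q => ((hMb ((α, q.1), q.2)).2 y h t hh.ne' (hin3 y hy) (hsh y hy)).trans hMbM)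
    have k3 := lin_sq (M := M) (fun β => C α β (y + h • ee t))
      (fun β => (W β (y + h • ee t) - W β y) / h)
      (fun β => ((hMc (α, β)).1 _ (hsh y hy)).trans hMcM)
    have k4 := lin_sq (M := M) (fun β => (C α β (y + h • ee t) - C α β y) / h)
      (fun β => W β y)
      (fun β => ((hMc (α, β)).2 y h t hh.ne' (hin3 y hy) (hsh y hy)).trans hMcM)
    have k5 : ((F α (y + h • ee t) - F α y) / h) ^ 2 ≤ M ^ 2 := by
      rw [← sq_abs]
      exact pow_le_pow_left₀ (abs_nonneg _) (((hMf α).2 y h t hh.ne' (hin3 y hy)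
        (hsh y hy)).trans hMfM) 2
    rw [Fintype.sum_prod_type (f := fun q : ι × Fin n =>
      ((dd q.2 (W q.1) (y + h • ee t) - dd q.2 (W q.1) y) / h) ^ 2), Fintype.card_prod,
      Fintype.card_fin, Nat.cast_mul] at k1
    rw [Fintype.sum_prod_type (f := fun q : ι × Fin n => dd q.2 (W q.1) y ^ 2),
      Fintype.card_prod, Fintype.card_fin, Nat.cast_mul] at k2
    have s1 : (∑ q : ι × Fin n, B' α q.1 q.2 (y + h • ee t) *
        dd q.2 (W q.1) (y + h • ee t) - ∑ q : ι × Fin n, B' α q.1 q.2 y *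
        dd q.2 (W q.1) y) / h = ∑ q : ι × Fin n, B' α q.1 q.2 (y + h • ee t) *
        ((dd q.2 (W q.1) (y + h • ee t) - dd q.2 (W q.1) y) / h) +
        ∑ q : ι × Fin n, ((B' α q.1 q.2 (y + h • ee t) - B' α q.1 q.2 y) / h) *
        dd q.2 (W q.1) y := by
      rw [← Finset.sum_sub_distrib, Finset.sum_div, ← Finset.sum_add_distrib]
      exact Finset.sum_congr rfl fun j _ => hprod _ _ _ _
    have s2 : (∑ β, C α β (y + h • ee t) * W β (y + h • ee t) -
        ∑ β, C α β y * W β y) / h =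
        ∑ β, C α β (y + h • ee t) * ((W β (y + h • ee t) - W β y) / h) +
        ∑ β, ((C α β (y + h • ee t) - C α β y) / h) * W β y := by
      rw [← Finset.sum_sub_distrib, Finset.sum_div, ← Finset.sum_add_distrib]
      exact Finset.sum_congr rfl fun j _ => hprod _ _ _ _
    rw [split5 s1 s2]
    have c1 : m * n * M ^ 2 ≤ (n + 1) * (m + 1) * M ^ 2 := by
      refine mul_le_mul_of_nonneg_right ?_ (sq_nonneg _)
      linarith [mul_comm m n]
    have c2 : m * M ^ 2 ≤ (n + 1) * (m + 1) * M ^ 2 := by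
      refine mul_le_mul_of_nonneg_right ?_ (sq_nonneg _)
      linarith [mul_nonneg hn0 hm0]
    have c3 : M ^ 2 ≤ (n + 1) * (m + 1) * M ^ 2 := by
      have : (1 : ℝ) * M ^ 2 ≤ (n + 1) * (m + 1) * M ^ 2 := by
        refine mul_le_mul_of_nonneg_right ?_ (sq_nonneg _)
        linarith [mul_nonneg hn0 hm0]
      rwa [one_mul] at this
    have d1 := k1.trans (mul_le_mul_of_nonneg_right c1 hSP0)
    have d2 := k2.trans (mul_le_mul_of_nonneg_right c1 hSQ0)
    have d3 := k3.trans (mul_le_mul_of_nonneg_right c2 hSW0)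
    have d4 := k4.trans (mul_le_mul_of_nonneg_right c2 hST0)
    have d5 := k5.trans c3
    refine (fin5 d1 d2 d3 d4 d5).trans (le_of_eq ?_)
    rw [hL]
    ring

end Vale.Agent.P088.R2.H558.DM
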