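import Vale.Agent.P088.R2.H856.DM.Row6
import Vale.Agent.P088.R2.H558.DM.DqSys

/-!
# P088 SOLV, row 6: the equation of the enlarged system
-/

open MeasureTheory Set Filter Topology
open scoped ContDiff

noncomputable section

namespace Vale.Agent.P088.R2.H558.DM

open Vale.Agent.P088.DC Vale.Agent.P088.R2.H856.DM.Loc

set_option linter.unusedSectionVars false

variable {n : ℕ} [NeZero n]

theorem cf_mul {r : ℝ} {f g : En n → ℝ} (hf : Cf r f) (hg : Cf r g) :
    Cf r (fun y => f y * g y) := by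
  obtain ⟨F, hF, h1⟩ := hf
  obtain ⟨G, hG, h2⟩ := hg
  exact ⟨fun y => F y * G y, hF.mul hG, fun y hy => by simp only [h1 hy, h2 hy]⟩

theorem cf_cst {r : ℝ} (c : ℝ) : Cf r (fun _ : En n => c) :=
  ⟨fun _ => c, contDiffOn_const, fun _ _ => rfl⟩

/-- `g` is a first order expression in `V` with coefficients of the class -/
def Rep {κ : Type} [Fintype κ] (r : ℝ) (V : κ → En n → ℝ) (g : En n → ℝ) : Prop :=
  ∃ (b : Fin n × κ → En n → ℝ) (c : κ → En n → ℝ) (f : En n → ℝ),
    (∀ p, Cf r (b p)) ∧ (∀ q, Cf r (c q)) ∧ Cf r f ∧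
    ∀ y ∈ (Uh r : Set (En n)), g y = ∑ p, b p y * dd p.1 (V p.2) y + ∑ q, c q y * V q y + f y

variable {κ : Type} [Fintype κ] {r : ℝ} {V : κ → En n → ℝ}

theorem Rep.add {g h : En n → ℝ} (hg : Rep r V g) (hh : Rep r V h) :
    Rep r V (fun y => g y + h y) := by
  obtain ⟨b, c, f, h1, h2, h3, h4⟩ := hg
  obtain ⟨b', c', f', h1', h2', h3', h4'⟩ := hh
  refine ⟨fun p y => b p y + b' p y, fun q y => c q y + c' q y, fun y => f y + f' y,
    fun p => cf_add (h1 p) (h1' p), fun q => cf_add (h2 q) (h2' q), cf_add h3 h3', ?_⟩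
  intro y hy
  simp only [h4 y hy, h4' y hy, add_mul, Finset.sum_add_distrib]
  ring

theorem Rep.mul {g h : En n → ℝ} (hh : Cf r h) (hg : Rep r V g) :
    Rep r V (fun y => h y * g y) := by
  obtain ⟨b, c, f, h1, h2, h3, h4⟩ := hg
  refine ⟨fun p y => h y * b p y, fun q y => h y * c q y, fun y => h y * f y,
    fun p => cf_mul hh (h1 p), fun q => cf_mul hh (h2 q), cf_mul hh h3, ?_⟩
  intro y hy
  simp only [h4 y hy, mul_add, Finset.mul_sum, mul_assoc]

theorem Rep.of_cf {g : En n → ℝ} (hg : Cf r g) : Rep r V g :=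
  ⟨fun _ _ => 0, fun _ _ => 0, g, fun _ => cf_zero, fun _ => cf_zero, hg, fun y _ => by simp⟩

theorem Rep.of_v (q : κ) : Rep r V (V q) := by
  classical
  refine ⟨fun _ _ => 0, fun q' _ => if q' = q then 1 else 0, fun _ => 0, fun _ => cf_zero,
    fun q' => cf_cst _, cf_zero, fun y _ => by simp⟩

theorem Rep.of_dv (i : Fin n) (q : κ) : Rep r V (dd i (V q)) := by
  classical
  refine ⟨fun p _ => if p = (i, q) then 1 else 0, fun _ _ => 0, fun _ => 0, fun q' => cf_cst _,
    fun _ => cf_zero, cf_zero, fun y _ => by simp⟩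

theorem Rep.congr {g h : En n → ℝ} (hg : Rep r V g) (he : EqOn h g (Uh r)) : Rep r V h := by
  obtain ⟨b, c, f, h1, h2, h3, h4⟩ := hg
  exact ⟨b, c, f, h1, h2, h3, fun y hy => (he hy).trans (h4 y hy)⟩

theorem Rep.sum {T : Type*} (s : Finset T) {g : T → En n → ℝ} (hg : ∀ t ∈ s, Rep r V (g t)) :
    Rep r V (fun y => ∑ t ∈ s, g t y) := by
  classical
  induction s using Finset.induction_on with
  | empty => simpa using Rep.of_cf (V := V) (cf_zero (r := r))
  | insert a s ha ih =>
    simp only [Finset.sum_insert ha]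
    exact (hg a (Finset.mem_insert_self _ _)).add
      (ih fun k hk => hg k (Finset.mem_insert_of_mem hk))

theorem Rep.sub {g h : En n → ℝ} (hg : Rep r V g) (hh : Rep r V h) :
    Rep r V (fun y => g y - h y) := by
  have := hg.add (Rep.mul (cf_cst (-1)) hh)
  refine this.congr fun y _ => by ring

/-- derivative of smooth functions -/
theorem sm_dd {f : En n → ℝ} (hf : ContDiffOn ℝ ∞ f (Uh r)) (i : Fin n) :
    ContDiffOn ℝ ∞ (dd i f) (Uh r) := by
  have h1 := hf.fderiv_of_isOpen (Uh_open r) (m := ∞) (by simp)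
  exact h1.clm_apply contDiffOn_const

theorem dAt {f : En n → ℝ} (hf : ContDiffOn ℝ ∞ f (Uh r)) {y : En n}
    (hy : y ∈ (Uh r : Set (En n))) : DifferentiableAt ℝ f y :=
  (hf.differentiableOn (by simp)).differentiableAt ((Uh_open r).mem_nhds hy)

theorem dd_comm {f : En n → ℝ} (hf : ContDiffOn ℝ ∞ f (Uh r)) (i j : Fin n) :
    EqOn (dd i (dd j f)) (dd j (dd i f)) (Uh r) := by
  intro y hy
  have hc : ContDiffAt ℝ ∞ f y := hf.contDiffAt ((Uh_open r).mem_nhds hy)
  have hs : IsSymmSndFDerivAt ℝ f y := hc.isSymmSndFDerivAt (by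
    rw [minSmoothness_of_isRCLikeNormedField]; exact ENat.LEInfty.out)
  have hd : DifferentiableAt ℝ (fderiv ℝ f) y :=
    ((hf.fderiv_of_isOpen (Uh_open r) (m := ∞) (by simp)).contDiffAt
      ((Uh_open r).mem_nhds hy)).differentiableAt (by simp)
  have key : ∀ i j : Fin n, dd i (dd j f) y = fderiv ℝ (fderiv ℝ f) y (ee i) (ee j) := by
    intro i j
    have h1 : fderiv ℝ (dd j f) y = _ := fderiv_clm_apply hd (differentiableAt_const (ee j))
    change fderiv ℝ (dd j f) y (ee i) = _
    rw [h1]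
    simp
  rw [key, key]
  exact hs.eq _ _

theorem dd_congr {f g : En n → ℝ} (h : EqOn f g (Uh r)) (i : Fin n) :
    EqOn (dd i f) (dd i g) (Uh r) := by
  intro y hy
  unfold dd
  have : f =ᶠ[𝓝 y] g := by
    filter_upwards [(Uh_open r).mem_nhds hy] with x hx
    exact h hx
  rw [this.fderiv_eq]

theorem dd_add {f g : En n → ℝ} {y : En n} (hf : DifferentiableAt ℝ f y)
    (hg : DifferentiableAt ℝ g y) (i : Fin n) :
    dd i (fun z => f z + g z) y = dd i f y + dd i g y := by
  have h := (hf.hasFDerivAt.fun_add hg.hasFDerivAt).fderiv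
  show fderiv ℝ (fun z => f z + g z) y (ee i) = _
  rw [h]; rfl

theorem dd_mul {f g : En n → ℝ} {y : En n} (hf : DifferentiableAt ℝ f y)
    (hg : DifferentiableAt ℝ g y) (i : Fin n) :
    dd i (fun z => f z * g z) y = f y * dd i g y + dd i f y * g y := by
  have h := (hf.hasFDerivAt.fun_mul hg.hasFDerivAt).fderiv
  show fderiv ℝ (fun z => f z * g z) y (ee i) = _
  rw [h]
  show f y * dd i g y + g y * dd i f y = _
  ring

theorem dd_sum {T : Type*} (s : Finset T) {g : T → En n → ℝ} {y : En n}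
    (hg : ∀ t ∈ s, DifferentiableAt ℝ (g t) y) (i : Fin n) :
    dd i (fun z => ∑ t ∈ s, g t z) y = ∑ t ∈ s, dd i (g t) y := by
  have h := (HasFDerivAt.fun_sum (u := s) (A := g) (A' := fun t => fderiv ℝ (g t) y)
    (fun t ht => (hg t ht).hasFDerivAt)).fderiv
  show fderiv ℝ (fun z => ∑ t ∈ s, g t z) y (ee i) = _
  rw [h, _root_.sum_apply]
  rfl

/-- **the enlarged system** -/
theorem eq1 (n : ℕ) [NeZero n] : Eq1 n := by
  intro ι _ r a W ha hs heq
  obtain ⟨B, C, F, hB, hC, hF, he⟩ := heq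
  set V : Fin n × ι → En n → ℝ := W1 W with hV
  have hV0 : ∀ α, V (0, α) = W α := fun α => by simp [hV, W1]
  have hVk : ∀ k : Fin n, k ≠ 0 → ∀ α, V (k, α) = dd k (W α) := fun k hk α => by
    simp [hV, W1, hk]
  -- representable expressions
  have rW : ∀ α, Rep r V (W α) := fun α => by rw [← hV0 α]; exact Rep.of_v _
  have rdW : ∀ i α, Rep r V (dd i (W α)) := fun i α => by rw [← hV0 α]; exact Rep.of_dv _ _
  have rRHS : ∀ α, Rep r V (fun y => ∑ i, ∑ β, B α β i y * dd i (W β) y +
      ∑ β, C α β y * W β y + F α y) := by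
    intro α
    exact ((Rep.sum _ fun i _ => Rep.sum _ fun β _ => (rdW i β).mul (hB α β i)).add
      (Rep.sum _ fun β _ => (rW β).mul (hC α β))).add (Rep.of_cf (hF α))
  have rdd1 : ∀ i j α, j ≠ 0 → Rep r V (dd i (dd j (W α))) := fun i j α hj => by
    rw [← hVk j hj α]; exact Rep.of_dv _ _
  have rdd2 : ∀ i j α, i ≠ 0 → Rep r V (dd i (dd j (W α))) := fun i j α hi =>
    (rdd1 j i α hi).congr (dd_comm (hs α) i j)
  obtain ⟨c0, hc0, hlow⟩ := ell_low ha
  have hinv : Cf r (fun y => (a 0 0 y)⁻¹) := cf_inv (ha.cf 0 0) hc0 hlow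
  have rdd0 : ∀ α, Rep r V (dd 0 (dd 0 (W α))) := by
    intro α
    have h1 : Rep r V (fun y => (a 0 0 y)⁻¹ * ((∑ i, ∑ β, B α β i y * dd i (W β) y +
        ∑ β, C α β y * W β y + F α y) -
        ∑ p ∈ (Finset.univ : Finset (Fin n × Fin n)).erase (0, 0),
          a p.1 p.2 y * dd p.1 (dd p.2 (W α)) y)) := by
      refine Rep.mul hinv ((rRHS α).sub (Rep.sum _ fun p hp => ?_))
      refine Rep.mul (ha.cf p.1 p.2) ?_
      have hp' : p ≠ (0, 0) := Finset.ne_of_mem_erase hp
      by_cases h2 : p.2 = 0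
      · have h1 : p.1 ≠ 0 := fun h1 => hp' (Prod.ext h1 h2)
        exact rdd2 _ _ _ h1
      · exact rdd1 _ _ _ h2
    refine h1.congr fun y hy => ?_
    have h2 := he α y hy
    have h3 : ∑ i, ∑ j, a i j y * dd i (dd j (W α)) y = a 0 0 y * dd 0 (dd 0 (W α)) y +
        ∑ p ∈ (Finset.univ : Finset (Fin n × Fin n)).erase (0, 0),
          a p.1 p.2 y * dd p.1 (dd p.2 (W α)) y := by
      rw [← Fintype.sum_prod_type' (f := fun i j => a i j y * dd i (dd j (W α)) y)]
      exact (Finset.add_sum_erase Finset.univ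
        (fun p : Fin n × Fin n => a p.1 p.2 y * dd p.1 (dd p.2 (W α)) y)
        (Finset.mem_univ (0, 0))).symm
    have h4 : a 0 0 y ≠ 0 := (hc0.trans_le (hlow y hy)).ne'
    simp only
    rw [← h2, h3]
    field_simp
    ring
  have rdd : ∀ i j α, Rep r V (dd i (dd j (W α))) := by
    intro i j α
    by_cases hj : j = 0
    · by_cases hi : i = 0
      · subst hi; subst hj; exact rdd0 α
      · exact rdd2 i j α hi
    · exact rdd1 i j α hj
  -- the equations
  have main : ∀ q : Fin n × ι, Rep r V (fun y => ∑ i, ∑ j, a i j y * dd i (dd j (V q)) y) := by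
    rintro ⟨k, α⟩
    by_cases hk : k = 0
    · subst hk
      rw [hV0]
      exact (rRHS α).congr fun y hy => he α y hy
    · rw [hVk k hk]
      -- derivative of the right side
      have r1 : Rep r V (dd k (fun y => ∑ i, ∑ β, B α β i y * dd i (W β) y +
          ∑ β, C α β y * W β y + F α y)) := by
        have r2 : Rep r V (fun y => (∑ i, ∑ β, (B α β i y * dd k (dd i (W β)) y +
            dd k (B α β i) y * dd i (W β) y) +
            ∑ β, (C α β y * dd k (W β) y + dd k (C α β) y * W β y)) + dd k (F α) y) := by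
          refine ((Rep.sum _ fun i _ => Rep.sum _ fun β _ => ?_).add
            (Rep.sum _ fun β _ => ?_)).add (Rep.of_cf ((hF α).ddF k))
          · exact (Rep.mul (hB α β i) (rdd k i β)).add
              (Rep.mul ((hB α β i).ddF k) (rdW i β))
          · exact (Rep.mul (hC α β) (rdW k β)).add (Rep.mul ((hC α β).ddF k) (rW β))
        refine r2.congr fun y hy => ?_
        have dB : ∀ i β, DifferentiableAt ℝ (fun y => B α β i y * dd i (W β) y) y :=
          fun i β => (dAt (hB α β i).smoothOn hy).mul (dAt (sm_dd (hs β) i) hy)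
        have dC : ∀ β, DifferentiableAt ℝ (fun y => C α β y * W β y) y :=
          fun β => (dAt (hC α β).smoothOn hy).mul (dAt (hs β) hy)
        have dBs : ∀ i, DifferentiableAt ℝ (fun y => ∑ β, B α β i y * dd i (W β) y) y :=
          fun i => DifferentiableAt.fun_sum fun β _ => dB i β
        have dBss : DifferentiableAt ℝ (fun y => ∑ i, ∑ β, B α β i y * dd i (W β) y) y :=
          DifferentiableAt.fun_sum fun i _ => dBs i
        have dCs : DifferentiableAt ℝ (fun y => ∑ β, C α β y * W β y) y :=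
          DifferentiableAt.fun_sum fun β _ => dC β
        rw [dd_add (f := fun y => ∑ i, ∑ β, B α β i y * dd i (W β) y + ∑ β, C α β y * W β y)
          (dBss.add dCs) (dAt (hF α).smoothOn hy) k,
          dd_add (f := fun y => ∑ i, ∑ β, B α β i y * dd i (W β) y) dBss dCs k,
          dd_sum Finset.univ (fun i _ => dBs i) k, dd_sum Finset.univ (fun β _ => dC β) k]
        congr 2
        · refine Finset.sum_congr rfl fun i _ => ?_
          rw [dd_sum Finset.univ (fun β _ => dB i β) k]
          refine Finset.sum_congr rfl fun β _ => ?_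
          exact dd_mul (dAt (hB α β i).smoothOn hy) (dAt (sm_dd (hs β) i) hy) k
        · refine Finset.sum_congr rfl fun β _ => ?_
          exact dd_mul (dAt (hC α β).smoothOn hy) (dAt (hs β) hy) k
      have r3 : Rep r V (fun y => dd k (fun y => ∑ i, ∑ β, B α β i y * dd i (W β) y +
          ∑ β, C α β y * W β y + F α y) y -
          ∑ i, ∑ j, dd k (a i j) y * dd i (dd j (W α)) y) :=
        r1.sub (Rep.sum _ fun i _ => Rep.sum _ fun j _ =>
          Rep.mul ((ha.cf i j).ddF k) (rdd i j α))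
      refine r3.congr fun y hy => ?_
      have e1 : dd k (fun y => ∑ i, ∑ β, B α β i y * dd i (W β) y +
          ∑ β, C α β y * W β y + F α y) y =
          dd k (fun y => ∑ i, ∑ j, a i j y * dd i (dd j (W α)) y) y :=
        dd_congr (fun z hz => (he α z hz).symm) k hy
      have dA : ∀ i j, DifferentiableAt ℝ (fun y => a i j y * dd i (dd j (W α)) y) y :=
        fun i j => (dAt (ha.cf i j).smoothOn hy).mul (dAt (sm_dd (sm_dd (hs α) j) i) hy)
      have e2 : dd k (fun y => ∑ i, ∑ j, a i j y * dd i (dd j (W α)) y) y =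
          ∑ i, ∑ j, (a i j y * dd k (dd i (dd j (W α))) y +
            dd k (a i j) y * dd i (dd j (W α)) y) := by
        rw [dd_sum Finset.univ (fun i _ => DifferentiableAt.fun_sum fun j _ => dA i j) k]
        refine Finset.sum_congr rfl fun i _ => ?_
        rw [dd_sum Finset.univ (fun j _ => dA i j) k]
        refine Finset.sum_congr rfl fun j _ => ?_
        exact dd_mul (dAt (ha.cf i j).smoothOn hy) (dAt (sm_dd (sm_dd (hs α) j) i) hy) k
      have e3 : ∀ i j, dd i (dd j (dd k (W α))) y = dd k (dd i (dd j (W α))) y := by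
        intro i j
        have h1 : dd i (dd j (dd k (W α))) y = dd i (dd k (dd j (W α))) y :=
          dd_congr (dd_comm (hs α) j k) i hy
        rw [h1]
        exact dd_comm (sm_dd (hs α) j) i k hy
      simp only [e3]
      rw [e1, e2]
      simp only [Finset.sum_add_distrib]
      ring
  choose b c f h1 h2 h3 h4 using main
  refine ⟨fun q q' i => b q (i, q'), fun q q' => c q q', f, fun q q' i => h1 q _,
    fun q q' => h2 q q', h3, ?_⟩
  intro q y hy
  have h5 := h4 q y hy
  rw [Fintype.sum_prod_type] at h5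
  exact h5

end Vale.Agent.P088.R2.H558.DM
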