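import Vale.Agent.P088.R2.H380.DM.Defs

/-!
# P088 SOLV: functions smooth up to the face are bounded with bounded difference quotients
-/

open MeasureTheory Set Filter Topology
open scoped ContDiff

noncomputable section

namespace Vale.Agent.P088.DC

variable {n : ℕ} [NeZero n]

omit [NeZero n] in
theorem ccoord (i : Fin n) : Continuous (fun x : En n => x i) :=
  (EuclideanSpace.proj (𝕜 := ℝ) i).continuous

theorem Uh_open (r : ℝ) : IsOpen (Uh r : Set (En n)) := by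
  have : (Uh r : Set (En n)) = {y | 0 < y 0} ∩ ⋂ i, {y | |y i| < r} := by
    ext y; simp [Uh]
  rw [this]
  exact (isOpen_lt continuous_const (ccoord 0)).inter
    (isOpen_iInter_of_finite fun i => isOpen_lt (ccoord i).abs continuous_const)

theorem Uh_sub_Hb (r : ℝ) : (Uh r : Set (En n)) ⊆ Hb r := fun _ hy => ⟨hy.1.le, hy.2⟩

theorem Uh_mono {r r' : ℝ} (h : r' ≤ r) : (Uh r' : Set (En n)) ⊆ Uh r :=
  fun _ hy => ⟨hy.1, fun i => (hy.2 i).trans_le h⟩

theorem Uh_cvx (r : ℝ) : Convex ℝ (Uh r : Set (En n)) := by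
  have : (Uh r : Set (En n)) = {y | 0 < y 0} ∩ ⋂ i, ({y | y i < r} ∩ {y | -r < y i}) := by
    ext y
    simp only [Uh, mem_ofPred_eq, mem_inter_iff, mem_iInter, abs_lt]
    constructor
    · rintro ⟨h1, h2⟩
      exact ⟨h1, fun i => ⟨(h2 i).2, (h2 i).1⟩⟩
    · rintro ⟨h1, h2⟩
      exact ⟨h1, fun i => ⟨(h2 i).2, (h2 i).1⟩⟩
  rw [this]
  have hl : ∀ i : Fin n, IsLinearMap ℝ (fun x : En n => x i) := fun i =>
    (EuclideanSpace.proj (𝕜 := ℝ) i : En n →L[ℝ] ℝ).toLinearMap.isLinear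
  exact (convex_halfSpace_gt (hl 0) 0).inter
    (convex_iInter fun i => (convex_halfSpace_lt (hl i) r).inter (convex_halfSpace_gt (hl i) (-r)))

theorem Hb_cvx (r : ℝ) : Convex ℝ (Hb r : Set (En n)) := by
  have : (Hb r : Set (En n)) = {y | 0 ≤ y 0} ∩ ⋂ i, ({y | y i < r} ∩ {y | -r < y i}) := by
    ext y
    simp only [Hb, mem_ofPred_eq, mem_inter_iff, mem_iInter, abs_lt]
    constructor
    · rintro ⟨h1, h2⟩
      exact ⟨h1, fun i => ⟨(h2 i).2, (h2 i).1⟩⟩
    · rintro ⟨h1, h2⟩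
      exact ⟨h1, fun i => ⟨(h2 i).2, (h2 i).1⟩⟩
  rw [this]
  have hl : ∀ i : Fin n, IsLinearMap ℝ (fun x : En n => x i) := fun i =>
    (EuclideanSpace.proj (𝕜 := ℝ) i : En n →L[ℝ] ℝ).toLinearMap.isLinear
  exact (convex_halfSpace_ge (hl 0) 0).inter
    (convex_iInter fun i => (convex_halfSpace_lt (hl i) r).inter (convex_halfSpace_gt (hl i) (-r)))

theorem Hb_uniq (r : ℝ) : UniqueDiffOn ℝ (Hb r : Set (En n)) := by
  rcases le_or_gt r 0 with hr | hr
  · have : (Hb r : Set (En n)) = ∅ := by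
      ext y
      simp only [mem_empty_iff_false, iff_false]
      intro hy
      exact absurd (hy.2 0) (not_lt.2 (hr.trans (abs_nonneg _)))
    rw [this]
    exact uniqueDiffOn_empty
  · refine uniqueDiffOn_convex (Hb_cvx r) ?_
    refine ⟨(r / 2) • ee (0 : Fin n), ?_⟩
    refine mem_interior.2 ⟨Uh r, Uh_sub_Hb r, Uh_open r, ?_⟩
    refine ⟨?_, fun i => ?_⟩
    · simp; exact hr
    · by_cases hi : i = 0
      · subst hi
        simp
        rw [abs_of_pos (half_pos hr)]; linarith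
      · simp [hi]; exact hr

/-- the closed half cube -/
theorem Hc_compact (r : ℝ) : IsCompact ({y : En n | 0 ≤ y 0 ∧ ∀ i, |y i| ≤ r}) := by
  have hcl : IsClosed ({y : En n | 0 ≤ y 0 ∧ ∀ i, |y i| ≤ r}) := by
    have : ({y : En n | 0 ≤ y 0 ∧ ∀ i, |y i| ≤ r}) = {y | 0 ≤ y 0} ∩ ⋂ i, {y | |y i| ≤ r} := by
      ext y; simp
    rw [this]
    exact (isClosed_le continuous_const (ccoord 0)).inter
      (isClosed_iInter fun i => isClosed_le (ccoord i).abs continuous_const)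
  refine Metric.isCompact_of_isClosed_isBounded hcl ?_
  rw [isBounded_iff_forall_norm_le]
  refine ⟨√(n * r ^ 2), fun y hy => ?_⟩
  rw [EuclideanSpace.norm_eq]
  refine Real.sqrt_le_sqrt ?_
  calc ∑ i, ‖y i‖ ^ 2 ≤ ∑ _i : Fin n, r ^ 2 := by
        refine Finset.sum_le_sum fun i _ => ?_
        rw [Real.norm_eq_abs]
        have h0 : 0 ≤ |y i| := abs_nonneg _
        have := hy.2 i
        gcongr
    _ = n * r ^ 2 := by simp

/-- bounded on smaller half cubes -/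
theorem Cf.bdd {r r' : ℝ} {f : En n → ℝ} (hf : Cf r f) (hr : r' < r) :
    ∃ M : ℝ, 0 ≤ M ∧ ∀ y ∈ (Uh r' : Set (En n)), |f y| ≤ M := by
  obtain ⟨g, hg, hfg⟩ := hf
  have hsub : {y : En n | 0 ≤ y 0 ∧ ∀ i, |y i| ≤ r'} ⊆ Hb r := fun y hy =>
    ⟨hy.1, fun i => (hy.2 i).trans_lt hr⟩
  obtain ⟨M, hM⟩ := (Hc_compact r').exists_bound_of_continuousOn (hg.continuousOn.mono hsub)
  refine ⟨max M 0, le_max_right _ _, fun y hy => ?_⟩
  rw [hfg (Uh_mono hr.le hy)]
  exact (hM y ⟨hy.1.le, fun i => (hy.2 i).le⟩).trans (le_max_left _ _)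

/-- the derivative -/
theorem Cf.ddF {r : ℝ} {f : En n → ℝ} (hf : Cf r f) (i : Fin n) : Cf r (dd i f) := by
  obtain ⟨g, hg, hfg⟩ := hf
  refine ⟨fun y => fderivWithin ℝ g (Hb r) y (ee i), ?_, ?_⟩
  · exact (hg.fderivWithin (Hb_uniq r) (m := ∞) (by simp)).clm_apply contDiffOn_const
  · intro y hy
    have h1 : f =ᶠ[𝓝 y] g := by
      filter_upwards [(Uh_open r).mem_nhds hy] with x hx
      exact hfg hx
    have h2 : (Hb r : Set (En n)) ∈ 𝓝 y :=
      mem_of_superset ((Uh_open r).mem_nhds hy) (Uh_sub_Hb r)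
    show fderiv ℝ f y (ee i) = fderivWithin ℝ g (Hb r) y (ee i)
    rw [h1.fderiv_eq, fderivWithin_of_mem_nhds h2]

theorem Cf.smoothOn {r : ℝ} {f : En n → ℝ} (hf : Cf r f) : ContDiffOn ℝ ∞ f (Uh r) := by
  obtain ⟨g, hg, hfg⟩ := hf
  exact (hg.mono (Uh_sub_Hb r)).congr hfg

/-- bounded difference quotients -/
theorem Cf.dq {r r' : ℝ} {f : En n → ℝ} (hf : Cf r f) (hr : r' < r) :
    ∃ M : ℝ, 0 ≤ M ∧ ∀ (y : En n) (h : ℝ) (t : Fin n), h ≠ 0 → y ∈ (Uh r' : Set (En n)) →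
      y + h • ee t ∈ (Uh r' : Set (En n)) → |(f (y + h • ee t) - f y) / h| ≤ M := by
  have hb : ∀ t : Fin n, ∃ M : ℝ, 0 ≤ M ∧ ∀ y ∈ (Uh r' : Set (En n)), |dd t f y| ≤ M :=
    fun t => (hf.ddF t).bdd hr
  choose M hM0 hM using hb
  refine ⟨∑ t, M t, Finset.sum_nonneg fun t _ => hM0 t, ?_⟩
  intro y h t hh hy hy'
  have hMt : M t ≤ ∑ t, M t := Finset.single_le_sum (fun t _ => hM0 t) (Finset.mem_univ t)
  refine le_trans ?_ hMt
  have hseg : ∀ s ∈ Icc (0 : ℝ) 1, y + (s * h) • ee t ∈ (Uh r' : Set (En n)) := by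
    intro s hs
    have := (Uh_cvx r').add_smul_sub_mem hy hy' hs
    simpa [add_sub_cancel_left, smul_smul] using this
  have hder : ∀ s ∈ Icc (0 : ℝ) 1, HasDerivWithinAt (fun s : ℝ => f (y + (s * h) • ee t))
      (h * dd t f (y + (s * h) • ee t)) (Icc 0 1) s := by
    intro s hs
    have hx := hseg s hs
    have hd : HasFDerivAt f (fderiv ℝ f (y + (s * h) • ee t)) (y + (s * h) • ee t) :=
      ((hf.smoothOn.differentiableOn (by simp)).differentiableAt
        ((Uh_open r).mem_nhds (Uh_mono hr.le hx))).hasFDerivAt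
    have hl : HasDerivAt (fun s : ℝ => y + (s * h) • ee t) (h • ee t) s := by
      have h1 : HasDerivAt (fun s : ℝ => s * h) h s := by
        simpa using (hasDerivAt_id s).mul_const h
      have h2 := (h1.smul_const (ee t : En n)).const_add y
      exact h2
    have h3 := hd.comp_hasDerivAt s hl
    rw [map_smul, smul_eq_mul] at h3
    exact h3.hasDerivWithinAt
  have hbd : ∀ s ∈ Icc (0 : ℝ) 1, ‖h * dd t f (y + (s * h) • ee t)‖ ≤ |h| * M t := by
    intro s hs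
    rw [norm_mul, Real.norm_eq_abs, Real.norm_eq_abs]
    exact mul_le_mul_of_nonneg_left (hM t _ (hseg s hs)) (abs_nonneg _)
  have h5 := (convex_Icc (0 : ℝ) 1).norm_image_sub_le_of_norm_hasDerivWithin_le hder hbd
    (left_mem_Icc.2 zero_le_one) (right_mem_Icc.2 zero_le_one)
  simp only [one_mul, zero_mul, zero_smul, add_zero, sub_zero, norm_one, mul_one] at h5
  rw [abs_div, div_le_iff₀ (abs_pos.2 hh), mul_comm (M t)]
  exact h5

end Vale.Agent.P088.DC
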