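import Vale.Agent.P088.MathlibUsed

/-!
# P088 SOLV, row 6: divergence theorem on the half box with a cut-off at the flat boundary
-/

open MeasureTheory Set Filter Topology
open scoped ContDiff ENNReal

noncomputable section

namespace Vale.Agent.P088.R2.H558.DM

set_option linter.unusedSectionVars false

variable {n : ℕ} [NeZero n]

/-- points -/
abbrev E' (n : ℕ) : Type := EuclideanSpace ℝ (Fin n)

/-- the partial derivative -/
def pt (i : Fin n) (v : E' n → ℝ) : E' n → ℝ :=
  fun y => fderiv ℝ v y (EuclideanSpace.single i (1 : ℝ))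

/-- a `C^1` function with compact support has derivatives of mean zero -/
theorem int_pt_zero {F : E' n → ℝ} (hF : ContDiff ℝ 1 F) (hc : HasCompactSupport F) (i : Fin n) :
    ∫ y, pt i F y = 0 := by
  have hd : Continuous (pt i F) := (hF.continuous_fderiv (by simp)).clm_apply continuous_const
  have hdc : HasCompactSupport (pt i F) := by
    have := hc.fderiv (𝕜 := ℝ)
    exact this.comp_left (g := fun L : E' n →L[ℝ] ℝ => L (EuclideanSpace.single i (1 : ℝ)))
      (by simp)
  have h := integral_mul_fderiv_eq_neg_fderiv_mul_of_integrable (μ := (volume : Measure (E' n)))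
    (f := fun _ => (1 : ℝ)) (g := F) (v := EuclideanSpace.single i (1 : ℝ))
    (by simp)
    (by simp only [one_mul]; exact hd.integrable_of_hasCompactSupport hdc)
    (by simp only [one_mul]; exact hF.continuous.integrable_of_hasCompactSupport hc)
    (fun x _ => differentiableAt_const _)
    (fun x _ => (hF.differentiable (by simp)) x)
  simpa [pt] using h

/-- the half box -/
def Uo (r : ℝ) : Set (E' n) := {y | 0 < y 0 ∧ ∀ i, |y i| < r}

theorem cont_coord (i : Fin n) : Continuous (fun x : E' n => x i) :=
  (EuclideanSpace.proj (𝕜 := ℝ) i).continuous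

theorem isOpen_Uo (r : ℝ) : IsOpen (Uo r : Set (E' n)) := by
  have : (Uo r : Set (E' n)) = {y | 0 < y 0} ∩ ⋂ i, {y | |y i| < r} := by
    ext y; simp [Uo]
  rw [this]
  exact (isOpen_lt continuous_const (cont_coord 0)).inter
    (isOpen_iInter_of_finite fun i => isOpen_lt (cont_coord i).abs continuous_const)

/-- the compact part -/
def Kc (e r : ℝ) : Set (E' n) := {y | e ≤ y 0 ∧ ∀ i, |y i| ≤ r}

theorem isCompact_Kc (e r : ℝ) : IsCompact (Kc e r : Set (E' n)) := by
  have hcl : IsClosed (Kc e r : Set (E' n)) := by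
    have : (Kc e r : Set (E' n)) = {y | e ≤ y 0} ∩ ⋂ i, {y | |y i| ≤ r} := by
      ext y; simp [Kc]
    rw [this]
    exact (isClosed_le continuous_const (cont_coord 0)).inter
      (isClosed_iInter fun i => isClosed_le (cont_coord i).abs continuous_const)
  refine Metric.isCompact_of_isClosed_isBounded hcl ?_
  rw [isBounded_iff_forall_norm_le]
  refine ⟨√(n * r ^ 2), fun y hy => ?_⟩
  rw [EuclideanSpace.norm_eq]
  refine Real.sqrt_le_sqrt ?_
  calc ∑ i, ‖y i‖ ^ 2 ≤ ∑ _i : Fin n, r ^ 2 := by
        refine Finset.sum_le_sum fun i _ => ?_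
        rw [Real.norm_eq_abs]
        have h0 : 0 ≤ |y i| := abs_nonneg _
        have := hy.2 i
        gcongr
    _ = n * r ^ 2 := by simp

/-- extension by zero of a function vanishing off a compact part is `C^1` -/
theorem ext_zero {F : E' n → ℝ} {O K : Set (E' n)} (hO : IsOpen O) (hK : IsCompact K)
    (hKO : K ⊆ O) (hF : ContDiffOn ℝ 1 F O) (h0 : ∀ y ∈ O, y ∉ K → F y = 0) :
    ContDiff ℝ 1 (O.indicator F) ∧ HasCompactSupport (O.indicator F) := by
  have hsup : ∀ y, y ∉ K → O.indicator F y = 0 := by
    intro y hy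
    by_cases h : y ∈ O
    · rw [indicator_of_mem h]; exact h0 y h hy
    · exact indicator_of_notMem h _
  constructor
  · rw [contDiff_iff_contDiffAt]
    intro y
    by_cases hy : y ∈ O
    · refine ((hF y hy).contDiffAt (hO.mem_nhds hy)).congr_of_eventuallyEq ?_
      filter_upwards [hO.mem_nhds hy] with x hx
      exact indicator_of_mem hx _
    · have hyK : y ∉ K := fun h => hy (hKO h)
      refine (contDiffAt_const (c := (0 : ℝ))).congr_of_eventuallyEq ?_
      filter_upwards [hK.isClosed.isOpen_compl.mem_nhds hyK] with x hx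
      exact hsup x hx
  · exact HasCompactSupport.of_support_subset_isCompact hK fun y hy => by
      by_contra h
      exact hy (hsup y h)

/-- divergence theorem for fields vanishing off a compact part -/
theorem div_cpt {O K : Set (E' n)} (hO : IsOpen O) (hK : IsCompact K) (hKO : K ⊆ O)
    (X : Fin n → E' n → ℝ) (hX : ∀ i, ContDiffOn ℝ 1 (X i) O)
    (h0 : ∀ i, ∀ y ∈ O, y ∉ K → X i y = 0) :
    IntegrableOn (fun y => ∑ i, pt i (X i) y) O ∧ ∫ y in O, ∑ i, pt i (X i) y = 0 := by
  have h1 : ∀ i, IntegrableOn (pt i (X i)) O ∧ ∫ y in O, pt i (X i) y = 0 := by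
    intro i
    obtain ⟨hc, hs⟩ := ext_zero hO hK hKO (hX i) (h0 i)
    have he : EqOn (pt i (X i)) (pt i (O.indicator (X i))) O := by
      intro y hy
      unfold pt
      congr 1
      refine Filter.EventuallyEq.fderiv_eq ?_
      filter_upwards [hO.mem_nhds hy] with x hx
      exact (indicator_of_mem hx _).symm
    have hd : Continuous (pt i (O.indicator (X i))) :=
      (hc.continuous_fderiv (by simp)).clm_apply continuous_const
    have hdc : HasCompactSupport (pt i (O.indicator (X i))) := by
      have := hs.fderiv (𝕜 := ℝ)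
      exact this.comp_left (g := fun L : E' n →L[ℝ] ℝ => L (EuclideanSpace.single i (1 : ℝ)))
        (by simp)
    have hi : Integrable (pt i (O.indicator (X i))) := hd.integrable_of_hasCompactSupport hdc
    have hz : ∀ y, y ∉ O → pt i (O.indicator (X i)) y = 0 := by
      intro y hy
      have hyK : y ∉ K := fun h => hy (hKO h)
      have : (O.indicator (X i)) =ᶠ[𝓝 y] fun _ => (0 : ℝ) := by
        filter_upwards [hK.isClosed.isOpen_compl.mem_nhds hyK] with x hx
        by_cases h : x ∈ O
        · rw [indicator_of_mem h]; exact h0 i x h hx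
        · exact indicator_of_notMem h _
      unfold pt
      rw [this.fderiv_eq]
      simp
    refine ⟨hi.integrableOn.congr_fun he.symm hO.measurableSet, ?_⟩
    rw [setIntegral_congr_fun hO.measurableSet he, setIntegral_eq_integral_of_forall_compl_eq_zero
      (fun y hy => hz y hy)]
    exact int_pt_zero hc hs i
  refine ⟨integrable_finsetSum _ fun i _ => (h1 i).1, ?_⟩
  rw [integral_finsetSum _ fun i _ => (h1 i).1]
  exact Finset.sum_eq_zero fun i _ => (h1 i).2

/-- the cut-off function -/
def chi (t : ℝ) : ℝ := Real.smoothTransition (t - 1)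

theorem chi_smooth : ContDiff ℝ ∞ chi := Real.smoothTransition.contDiff.comp
  (contDiff_id.sub contDiff_const)

theorem chi_zero {t : ℝ} (h : t ≤ 1) : chi t = 0 :=
  Real.smoothTransition.zero_of_nonpos (by linarith)

theorem chi_one {t : ℝ} (h : 2 ≤ t) : chi t = 1 :=
  Real.smoothTransition.one_of_one_le (by linarith)

theorem chi_nonneg (t : ℝ) : 0 ≤ chi t := Real.smoothTransition.nonneg _

theorem chi_le (t : ℝ) : chi t ≤ 1 := Real.smoothTransition.le_one _

theorem chi_deriv : ∃ M : ℝ, 0 ≤ M ∧ (∀ t, |deriv chi t| ≤ M) ∧ ∀ t, 2 < t → deriv chi t = 0 := by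
  have hc : Continuous (deriv chi) := chi_smooth.continuous_deriv (by simp)
  have h2 : ∀ t, 2 < t → deriv chi t = 0 := by
    intro t ht
    have : chi =ᶠ[𝓝 t] fun _ => (1 : ℝ) := by
      filter_upwards [lt_mem_nhds ht] with s hs
      exact chi_one hs.le
    rw [this.deriv_eq]; simp
  have h1 : ∀ t, t < 1 → deriv chi t = 0 := by
    intro t ht
    have : chi =ᶠ[𝓝 t] fun _ => (0 : ℝ) := by
      filter_upwards [gt_mem_nhds ht] with s hs
      exact chi_zero hs.le
    rw [this.deriv_eq]; simp
  obtain ⟨M, hM⟩ := (isCompact_Icc (a := (1 : ℝ)) (b := 2)).exists_bound_of_continuousOn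
    hc.continuousOn
  refine ⟨max M 0, le_max_right _ _, fun t => ?_, h2⟩
  rcases lt_or_ge t 1 with h | h
  · rw [h1 t h]; simp
  rcases lt_or_ge 2 t with h' | h'
  · rw [h2 t h']; simp
  · exact (hM t ⟨h, h'⟩).trans (le_max_left _ _)

end Vale.Agent.P088.R2.H558.DM
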