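import Vale.Agent.P088.Bdl.B1
import Vale.Agent.P088.Bdl.B10

/-!
# P088 SOLV, joint: the operator `Lop` near the boundary in real components
-/

open MeasureTheory Set Filter Topology
open scoped ContDiff

noncomputable section

namespace Vale.Agent.P088.DM.J

open Vale.Agent.P088 Vale.Agent.P088.EYM

set_option linter.unusedSectionVars false

variable {n N : ℕ} [NeZero n]

/-- the open set of the interior points of a relatively open set -/
theorem pos_open {D : Set (E n)} (hD : RelOpen D) : IsOpen (D ∩ {y : E n | 0 < y 0}) := by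
  obtain ⟨O, hO, rfl⟩ := hD
  have : O ∩ Hs n ∩ {y : E n | 0 < y 0} = O ∩ {y : E n | 0 < y 0} := by
    ext y
    constructor
    · rintro ⟨⟨h1, -⟩, h2⟩
      exact ⟨h1, h2⟩
    · rintro ⟨h1, h2⟩
      exact ⟨⟨h1, show (0 : ℝ) ≤ y 0 from le_of_lt (show (0 : ℝ) < y 0 from h2)⟩, h2⟩
  rw [this]
  exact hO.inter (isOpen_lt continuous_const (continuous_coord 0))

/-- `Lop` in non-divergence form, with coefficients smooth up to the boundary -/
theorem lop_bd {L : LD n N} {D : Set (E n)} (hR : RelOpen D) (hL : L.Ok D) :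
    ∃ (M : Fin n → E n → EndF N) (M0 : E n → EndF N), (∀ j, ContDiffOn ℝ ∞ (M j) D) ∧
      ContDiffOn ℝ ∞ M0 D ∧ ∀ v : E n → Fib N, ∀ x ∈ D, 0 < x 0 → ContDiffAt ℝ 2 v x →
        Lop L v x = ES.Pop (gg L.g) M M0 v x := by
  have hgg : ∀ j k, ContDiffOn ℝ ∞ (gg L.g j k) D := fun j k =>
    hR.gg_smooth hL.g_smooth hL.g_pos j k
  have hdg : ∀ i j k, ContDiffOn ℝ ∞ (pd i (gg L.g j k)) D := fun i j k =>
    hR.pd_smooth (hgg j k) i
  have hdB : ∀ i j, ContDiffOn ℝ ∞ (pd i (L.B j)) D := fun i j => hR.pd_smooth (hL.B_smooth j) i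
  have hDo := pos_open hR
  have hDH : D ∩ {y : E n | 0 < y 0} ⊆ Hs n := fun y hy => hR.subset hy.1
  refine ⟨fun k x => ∑ j, (pd j (gg L.g j k) x • (1 : EndF N) + gg L.g k j x • L.B j x +
      gg L.g j k x • L.B j x),
    fun x => ∑ j, ∑ k, (gg L.g j k x • pd j (L.B k) x + pd j (gg L.g j k) x • L.B k x +
      gg L.g j k x • (L.B j x * L.B k x)), ?_, ?_, ?_⟩
  · intro k
    refine ContDiffOn.sum fun j _ => ?_
    exact (((hdg j j k).smul contDiffOn_const).add ((hgg k j).smul (hL.B_smooth j))).add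
      ((hgg j k).smul (hL.B_smooth j))
  · refine ContDiffOn.sum fun j _ => ContDiffOn.sum fun k _ => ?_
    exact (((hgg j k).smul (hdB j k)).add ((hdg j j k).smul (hL.B_smooth k))).add
      ((hgg j k).smul (smooth_mul (hL.B_smooth j) (hL.B_smooth k)))
  · intro v x hxD hx0 hv
    have hx : x ∈ D ∩ {y : E n | 0 < y 0} := ⟨hxD, hx0⟩
    obtain ⟨U, hUx, hvU⟩ := hv.contDiffOn (m := 2) le_rfl (by simp)
    obtain ⟨V, hVU, hVo, hxV⟩ := mem_nhds_iff.1 (inter_mem hUx (hDo.mem_nhds hx))
    have hVD' : V ⊆ D ∩ {y : E n | 0 < y 0} := fun y hy => (hVU hy).2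
    have hVD : V ⊆ D := fun y hy => (hVU hy).2.1
    have hVH : V ⊆ Hs n := hVD'.trans hDH
    have hVR : RelOpen V := ES.SLop_rel hVo hVH
    have hv2 : ContDiffOn ℝ 2 v V := hvU.mono fun y hy => (hVU hy).1
    have hv1 : ContDiffOn ℝ 1 v V := hv2.of_le (by norm_num)
    have hpv : ∀ k, ContDiffOn ℝ 1 (pd k v) V := fun k =>
      ES.SLop_pd_smooth hVR hv2 (by norm_num) k
    have hBv : ∀ k, ContDiffOn ℝ 1 (fun y => L.B k y (v y)) V := fun k =>
      smooth_eval (((hL.B_smooth k).mono hVD).of_le (by exact_mod_cast le_top)) hv1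
    have hnab : ∀ k, ContDiffOn ℝ 1 (fun y => pd k v y + L.B k y (v y)) V := fun k =>
      (hpv k).add (hBv k)
    have hgV : ∀ j k, ContDiffOn ℝ 1 (gg L.g j k) V := fun j k =>
      ((hgg j k).mono hVD).of_le (by exact_mod_cast le_top)
    have e1 : ∀ j, pd j (flux L j v) x = ∑ k, (gg L.g j k x • (pd j (pd k v) x +
        (L.B k x (pd j v x) + pd j (L.B k) x (v x))) +
        pd j (gg L.g j k) x • (pd k v x + L.B k x (v x))) := by
      intro j
      have h3 : pd j (flux L j v) x =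
        pd j (fun y => ∑ k, gg L.g j k y • (pd k v y + L.B k y (v y))) x := rfl
      rw [h3, ES.SLop_pd_sum hVR Finset.univ one_ne_zero
        (f := fun k y => gg L.g j k y • (pd k v y + L.B k y (v y)))
        (fun k _ => (hgV j k).smul (hnab k)) hxV j]
      refine Finset.sum_congr rfl fun k _ => ?_
      rw [ES.SLop_pd_smul hVR one_ne_zero one_ne_zero (hgV j k) (hnab k) hxV j]
      congr 2
      have h4 : pd j (fun y => pd k v y + L.B k y (v y)) x =
          pd j (pd k v) x + pd j (fun y => L.B k y (v y)) x :=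
        pd_of_has (hVR.subset hxV) ((hVR.hasD hxV (hpv k) one_ne_zero).add
          (hVR.hasD hxV (hBv k) one_ne_zero)) j
      rw [h4, hVR.pd_eval (hL.B_smooth k |>.mono hVD) hv1 (by simp) one_ne_zero hxV j]
    have e2 : ∀ j k, fderiv ℝ (fun y => fderiv ℝ v y (ev k)) x (ev j) = pd j (pd k v) x := by
      intro j k
      rw [← ES.SLop_pd hVo hVH hxV]
      exact hVR.pd_congr (fun y hy => (ES.SLop_pd hVo hVH hy v k).symm) hxV j
    have e3 : ∀ j, fderiv ℝ v x (ev j) = pd j v x := fun j =>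
      (ES.SLop_pd hVo hVH hxV v j).symm
    have e4 : ∀ j, L.B j x (flux L j v x) = ∑ k, gg L.g j k x • (L.B j x (pd k v x) +
        L.B j x (L.B k x (v x))) := by
      intro j
      unfold flux nab
      rw [map_sum]
      refine Finset.sum_congr rfl fun k _ => ?_
      rw [ContinuousLinearMap.map_smul_of_tower, map_add]
    unfold Lop ES.Pop
    simp only [e1, e2, e3, e4]
    exact ES.SLop_alg (fun j k => gg L.g j k x) (fun j k => pd j (gg L.g j k) x)
      (fun j k => pd j (pd k v) x) (fun k => pd k v x) (fun k => L.B k x)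
      (fun j k => pd j (L.B k) x) (v x)

/-! ### real components -/

/-- the real component functionals of `ℂ^N` -/
def rc (al : Fin N × Fin 2) : Fib N →L[ℝ] ℝ :=
  if al.2 = 0 then Complex.reCLM.comp ((EuclideanSpace.proj (𝕜 := ℂ) al.1).restrictScalars ℝ)
  else Complex.imCLM.comp ((EuclideanSpace.proj (𝕜 := ℂ) al.1).restrictScalars ℝ)

/-- the real basis of `ℂ^N` -/
def rb (al : Fin N × Fin 2) : Fib N :=
  EuclideanSpace.single al.1 (if al.2 = 0 then (1 : ℂ) else Complex.I)

theorem rc_zero (j : Fin N) (v : Fib N) : rc (j, 0) v = (v j).re := by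
  simp [rc]

theorem rc_one (j : Fin N) (v : Fib N) : rc (j, 1) v = (v j).im := by
  simp [rc]

theorem rb_expand (v : Fib N) : v = ∑ b : Fin N × Fin 2, rc b v • rb b := by
  rw [Fintype.sum_prod_type]
  simp only [Fin.sum_univ_two, rc_zero, rc_one]
  ext k
  simp [rb, Finset.sum_apply, Pi.single_apply]
  rw [Finset.sum_eq_single k]
  · simp
  · intro b _ hb
    simp [Ne.symm hb]
  · simp

theorem rc_clm (T : EndF N) (al : Fin N × Fin 2) (v : Fib N) :
    rc al (T v) = ∑ b, rc b v * rc al (T (rb b)) := by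
  conv_lhs => rw [rb_expand v]
  rw [map_sum, map_sum]
  refine Finset.sum_congr rfl fun b _ => ?_
  rw [ContinuousLinearMap.map_smul_of_tower, map_smul, smul_eq_mul]

theorem rc_abs_le (al : Fin N × Fin 2) (v : Fib N) : |rc al v| ≤ ‖v‖ := by
  have h1 : ‖v al.1‖ ≤ ‖v‖ := PiLp.norm_apply_le v al.1
  unfold rc
  split_ifs
  · exact (Complex.abs_re_le_norm _).trans h1
  · exact (Complex.abs_im_le_norm _).trans h1

end Vale.Agent.P088.DM.J
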