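import Vale.Agent.P088.R2.H558.DM.Div

/-!
# P088 SOLV, row 6: the weak identity with test functions of zero trace
-/

open MeasureTheory Set Filter Topology
open scoped ContDiff ENNReal NNReal

noncomputable section

namespace Vale.Agent.P088.R2.H558.DM

set_option linter.unusedSectionVars false

variable {n : ℕ} [NeZero n]

/-- the part of the half box away from the lateral boundary -/
def Ac (r r1 : ℝ) : Set (E' n) := {y | y ∈ Uo r ∧ ∀ i, |y i| ≤ r1}

theorem meas_Ac (r r1 : ℝ) : MeasurableSet (Ac r r1 : Set (E' n)) := by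
  have : (Ac r r1 : Set (E' n)) = Uo r ∩ ⋂ i, {y | |y i| ≤ r1} := by
    ext y; simp [Ac]
  rw [this]
  exact (isOpen_Uo r).measurableSet.inter
    (MeasurableSet.iInter fun i => (isClosed_le (cont_coord i).abs continuous_const).measurableSet)

/-- `F = 0` off `Ac` implies the same for the derivative -/
theorem pt_zero_off {r r1 : ℝ} {φ : E' n → ℝ} (h0 : ∀ y ∈ Uo r, y ∉ Ac r r1 → φ y = 0)
    (i : Fin n) : ∀ y ∈ (Uo r : Set (E' n)), y ∉ (Ac r r1 : Set (E' n)) → pt i φ y = 0 := by
  intro y hy hyA
  have h1 : ∃ k, r1 < |y k| := by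
    by_contra h
    push Not at h
    exact hyA ⟨hy, h⟩
  obtain ⟨k, hk⟩ := h1
  have : φ =ᶠ[𝓝 y] fun _ => (0 : ℝ) := by
    filter_upwards [(isOpen_Uo r).mem_nhds hy,
      (isOpen_lt continuous_const (cont_coord k).abs).mem_nhds (show y ∈ {x : E' n | r1 < |x k|}
        from hk)] with x hx hx'
    refine h0 x hx fun h => ?_
    exact absurd (h.2 k) (not_le.2 hx')
  unfold pt
  rw [this.fderiv_eq]
  simp

theorem pt_mul {f g : E' n → ℝ} {y : E' n} (hf : DifferentiableAt ℝ f y)
    (hg : DifferentiableAt ℝ g y) (i : Fin n) :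
    pt i (fun z => f z * g z) y = f y * pt i g y + pt i f y * g y := by
  unfold pt
  rw [fderiv_fun_mul hf hg]
  simp [mul_comm]

theorem pt_chi (c : ℝ) (i : Fin n) (y : E' n) :
    pt i (fun z : E' n => chi (c * z 0)) y = if i = 0 then c * deriv chi (c * y 0) else 0 := by
  have h1 : HasFDerivAt (fun z : E' n => c * z 0)
      (c • (EuclideanSpace.proj (𝕜 := ℝ) (0 : Fin n) : E' n →L[ℝ] ℝ)) y :=
    (EuclideanSpace.proj (𝕜 := ℝ) (0 : Fin n)).hasFDerivAt.const_mul c
  have h2 : HasDerivAt chi (deriv chi (c * y 0)) (c * y 0) :=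
    ((chi_smooth.differentiable (by simp)) _).hasDerivAt
  have h3 := h2.comp_hasFDerivAt y h1
  unfold pt
  have h4 : fderiv ℝ (fun z : E' n => chi (c * z 0)) y = _ := h3.fderiv
  rw [h4]
  by_cases hi : i = 0
  · subst hi
    simp
    ring
  · simp [hi, Ne.symm hi]

/-- **divergence theorem with a factor of zero trace** -/
theorem div_zero {r r1 : ℝ} (hr : r1 < r) (b : Fin n → E' n → ℝ) (φ : E' n → ℝ)
    (hb : ∀ i, ContDiffOn ℝ 1 (b i) (Uo r)) (hφ : ContDiffOn ℝ 1 φ (Uo r))
    (h0 : ∀ y ∈ Uo r, y ∉ Ac r r1 → φ y = 0)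
    (hb2 : IntegrableOn (fun y => b 0 y ^ 2) (Ac r r1))
    (hφ2 : IntegrableOn (fun y => φ y ^ 2) (Uo r))
    (htr : ∃ K : ℝ, ∀ e > 0, ∫ y in Uo r ∩ {y | y 0 < e}, φ y ^ 2 ≤ K * e ^ 2)
    (hint : IntegrableOn (fun y => ∑ i, pt i (fun z => b i z * φ z) y) (Uo r)) :
    ∫ y in Uo r, ∑ i, pt i (fun z => b i z * φ z) y = 0 := by
  obtain ⟨K, hK⟩ := htr
  obtain ⟨M, hM0, hM, hM2⟩ := chi_deriv
  have hUo := isOpen_Uo (n := n) r
  have hUm : MeasurableSet (Uo r : Set (E' n)) := hUo.measurableSet
  -- the cut-off fields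
  have key : ∀ k : ℕ, ∫ y in Uo r, (∑ i, pt i (fun z => b i z * φ z) y) * chi ((k + 1) * y 0) =
      - ∫ y in Uo r, b 0 y * φ y * ((k + 1) * deriv chi ((k + 1) * y 0)) := by
    intro k
    set c : ℝ := (k : ℝ) + 1 with hc
    have hc0 : 0 < c := by positivity
    have hθ : ContDiff ℝ ∞ (fun z : E' n => chi (c * z 0)) :=
      chi_smooth.comp (contDiff_const.mul
        (EuclideanSpace.proj (𝕜 := ℝ) (0 : Fin n) : E' n →L[ℝ] ℝ).contDiff)
    have hX : ∀ i, ContDiffOn ℝ 1 (fun y => b i y * φ y * chi (c * y 0)) (Uo r) := fun i =>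
      ((hb i).mul hφ).mul (hθ.of_le (by exact_mod_cast le_top)).contDiffOn
    have hKs : (Kc (1 / c) r1 : Set (E' n)) ⊆ Uo r := fun y hy =>
      ⟨lt_of_lt_of_le (by positivity) hy.1, fun i => (hy.2 i).trans_lt hr⟩
    have hoff : ∀ i, ∀ y ∈ (Uo r : Set (E' n)), y ∉ (Kc (1 / c) r1 : Set (E' n)) →
        b i y * φ y * chi (c * y 0) = 0 := by
      intro i y hy hyK
      by_cases hA : y ∈ (Ac r r1 : Set (E' n))
      · have h1 : y 0 < 1 / c := by
          by_contra h
          push Not at h
          exact hyK ⟨h, hA.2⟩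
        have h2 : c * y 0 ≤ 1 := by
          have := mul_lt_mul_of_pos_left h1 hc0
          rw [mul_one_div_cancel hc0.ne'] at this
          exact this.le
        rw [chi_zero h2, mul_zero]
      · rw [h0 y hy hA]; ring
    obtain ⟨hi1, hi2⟩ := div_cpt hUo (isCompact_Kc (1 / c) r1) hKs _ hX hoff
    have hpt : ∀ y ∈ (Uo r : Set (E' n)), ∑ i, pt i (fun y => b i y * φ y * chi (c * y 0)) y =
        (∑ i, pt i (fun z => b i z * φ z) y) * chi (c * y 0) +
          b 0 y * φ y * (c * deriv chi (c * y 0)) := by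
      intro y hy
      have hdb : ∀ i, DifferentiableAt ℝ (b i) y := fun i =>
        ((hb i).contDiffAt (hUo.mem_nhds hy)).differentiableAt (by simp)
      have hdφ : DifferentiableAt ℝ φ y :=
        (hφ.contDiffAt (hUo.mem_nhds hy)).differentiableAt (by simp)
      have hdθ : DifferentiableAt ℝ (fun z : E' n => chi (c * z 0)) y :=
        (hθ.differentiable (by simp)) y
      have e1 : ∀ i, pt i (fun y => b i y * φ y * chi (c * y 0)) y =
          pt i (fun z => b i z * φ z) y * chi (c * y 0) +
            b i y * φ y * (if i = 0 then c * deriv chi (c * y 0) else 0) := by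
        intro i
        rw [pt_mul (f := fun z => b i z * φ z) (g := fun z : E' n => chi (c * z 0))
          ((hdb i).mul hdφ) hdθ i, pt_chi]
        ring
      simp only [e1]
      rw [Finset.sum_add_distrib, ← Finset.sum_mul]
      congr 1
      rw [Finset.sum_eq_single (0 : Fin n)]
      · simp
      · intro i _ hi
        simp [hi]
      · simp
    have hi3 : IntegrableOn (fun y => (∑ i, pt i (fun z => b i z * φ z) y) * chi (c * y 0))
        (Uo r) := by
      refine Integrable.mul_bdd (c := 1) hint ?_ ?_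
      · exact hθ.continuous.aestronglyMeasurable
      · refine Filter.Eventually.of_forall fun y => ?_
        rw [Real.norm_eq_abs, abs_of_nonneg (chi_nonneg _)]
        exact chi_le _
    have hi4 : IntegrableOn (fun y => b 0 y * φ y * (c * deriv chi (c * y 0))) (Uo r) := by
      have : IntegrableOn (fun y => ∑ i, pt i (fun y => b i y * φ y * chi (c * y 0)) y -
          (∑ i, pt i (fun z => b i z * φ z) y) * chi (c * y 0)) (Uo r) := hi1.sub hi3
      refine this.congr_fun (fun y hy => ?_) hUm
      simp only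
      rw [hpt y hy]
      ring
    have h5 : ∫ y in Uo r, ((∑ i, pt i (fun z => b i z * φ z) y) * chi (c * y 0) +
        b 0 y * φ y * (c * deriv chi (c * y 0))) = 0 := by
      rw [← hi2]
      exact (setIntegral_congr_fun hUm hpt).symm
    rw [integral_add hi3 hi4] at h5
    linarith
  -- limit of the left side
  have hL : Tendsto (fun k : ℕ => ∫ y in Uo r, (∑ i, pt i (fun z => b i z * φ z) y) *
      chi ((k + 1) * y 0)) atTop (𝓝 (∫ y in Uo r, ∑ i, pt i (fun z => b i z * φ z) y)) := by
    refine tendsto_integral_of_dominated_convergence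
      (fun y => ‖∑ i, pt i (fun z => b i z * φ z) y‖) ?_ hint.norm ?_ ?_
    · intro k
      refine hint.aestronglyMeasurable.mul ?_
      exact (chi_smooth.continuous.comp (continuous_const.mul (cont_coord 0))).aestronglyMeasurable
    · intro k
      refine Filter.Eventually.of_forall fun y => ?_
      rw [norm_mul]
      refine mul_le_of_le_one_right (norm_nonneg _) ?_
      rw [Real.norm_eq_abs, abs_of_nonneg (chi_nonneg _)]
      exact chi_le _
    · refine (ae_restrict_iff' hUm).2 (Filter.Eventually.of_forall fun y hy => ?_)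
      have hy0 : 0 < y 0 := hy.1
      obtain ⟨k0, hk0⟩ := exists_nat_gt (2 / y 0)
      refine tendsto_const_nhds.congr' ?_
      filter_upwards [eventually_ge_atTop k0] with k hk
      have : 2 ≤ ((k : ℝ) + 1) * y 0 := by
        have h1 : 2 / y 0 < (k : ℝ) + 1 := by
          have : (k0 : ℝ) ≤ k := by exact_mod_cast hk
          linarith
        rw [div_lt_iff₀ hy0] at h1
        exact h1.le
      rw [chi_one this, mul_one]
  -- limit of the right side
  have hJ : Tendsto (fun k : ℕ => ∫ y in Ac r r1, {y : E' n | ((k : ℝ) + 1) * y 0 ≤ 2}.indicator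
      (fun y => b 0 y ^ 2) y) atTop (𝓝 0) := by
    have h00 : (0 : ℝ) = ∫ y in (Ac r r1 : Set (E' n)), (0 : ℝ) := by simp
    rw [h00]
    refine tendsto_integral_of_dominated_convergence (fun y => ‖b 0 y ^ 2‖) ?_ hb2.norm ?_ ?_
    · intro k
      refine hb2.aestronglyMeasurable.indicator ?_
      exact (isClosed_le (continuous_const.mul (cont_coord 0)) continuous_const).measurableSet
    · intro k
      refine Filter.Eventually.of_forall fun y => ?_
      exact norm_indicator_le_norm_self _ _
    · refine (ae_restrict_iff' (meas_Ac r r1)).2 (Filter.Eventually.of_forall fun y hy => ?_)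
      have hy0 : 0 < y 0 := hy.1.1
      obtain ⟨k0, hk0⟩ := exists_nat_gt (2 / y 0)
      refine tendsto_const_nhds.congr' ?_
      filter_upwards [eventually_ge_atTop k0] with k hk
      have h2 : 2 < ((k : ℝ) + 1) * y 0 := by
        have h1 : 2 / y 0 < (k : ℝ) + 1 := by
          have : (k0 : ℝ) ≤ k := by exact_mod_cast hk
          linarith
        rwa [div_lt_iff₀ hy0] at h1
      rw [indicator_of_notMem]
      simpa using h2
  have hR : Tendsto (fun k : ℕ => - ∫ y in Uo r, b 0 y * φ y *
      ((k + 1) * deriv chi ((k + 1) * y 0))) atTop (𝓝 0) := by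
    rw [Metric.tendsto_atTop]
    intro ε hε
    set K' : ℝ := max K 0 with hK'
    set lam : ℝ := 9 * K' * M / ε + 1 with hlam
    have hlam0 : 0 < lam := by positivity
    have hJ' : Tendsto (fun k : ℕ => M / 2 * lam * ∫ y in Ac r r1,
        {y : E' n | ((k : ℝ) + 1) * y 0 ≤ 2}.indicator (fun y => b 0 y ^ 2) y) atTop (𝓝 0) := by
      simpa using hJ.const_mul (M / 2 * lam)
    obtain ⟨k0, hk0⟩ := (Metric.tendsto_atTop.1 hJ') (ε / 2) (by positivity)
    refine ⟨k0, fun k hk => ?_⟩
    have h1 := hk0 k hk
    rw [Real.dist_eq, sub_zero] at h1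
    rw [Real.dist_eq, sub_zero, abs_neg]
    set c : ℝ := (k : ℝ) + 1 with hc
    have hc0 : 0 < c := by positivity
    set S : Set (E' n) := {y : E' n | c * y 0 ≤ 2} with hS
    have hSm : MeasurableSet S :=
      (isClosed_le (continuous_const.mul (cont_coord 0)) continuous_const).measurableSet
    set T : Set (E' n) := {y : E' n | y 0 < 3 / c} with hT
    have hTm : MeasurableSet T := (isOpen_lt (cont_coord 0) continuous_const).measurableSet
    -- pointwise bound
    have hb1 : ∀ y ∈ (Uo r : Set (E' n)), ‖b 0 y * φ y * (c * deriv chi (c * y 0))‖ ≤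
        M / 2 * lam * (Ac r r1).indicator (S.indicator (fun y => b 0 y ^ 2)) y +
          M / 2 / lam * c ^ 2 * T.indicator (fun y => φ y ^ 2) y := by
      intro y hy
      by_cases hA : y ∈ (Ac r r1 : Set (E' n))
      · by_cases hyS : y ∈ S
        · have hyT : y ∈ T := by
            show y 0 < 3 / c
            rw [lt_div_iff₀ hc0]
            have : c * y 0 ≤ 2 := hyS
            linarith
          rw [indicator_of_mem hA, indicator_of_mem hyS, indicator_of_mem hyT]
          have hd := hM (c * y 0)
          rw [Real.norm_eq_abs, abs_mul, abs_mul, abs_mul, abs_of_pos hc0]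
          have h3 : |b 0 y| * |φ y| * (c * |deriv chi (c * y 0)|) ≤
              |b 0 y| * |φ y| * (c * M) := by gcongr
          refine h3.trans ?_
          have h4 : |b 0 y| * (c * |φ y|) ≤ lam / 2 * |b 0 y| ^ 2 + (c * |φ y|) ^ 2 / (2 * lam) := by
            have h5 : 0 ≤ (lam * |b 0 y| - c * |φ y|) ^ 2 / (2 * lam) := by positivity
            have h6 : (lam * |b 0 y| - c * |φ y|) ^ 2 / (2 * lam) = lam / 2 * |b 0 y| ^ 2 +
                (c * |φ y|) ^ 2 / (2 * lam) - |b 0 y| * (c * |φ y|) := by
              field_simp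
              ring
            linarith
          have h7 := mul_le_mul_of_nonneg_left h4 hM0
          have h8 : |b 0 y| * |φ y| * (c * M) = M * (|b 0 y| * (c * |φ y|)) := by ring
          rw [h8]
          refine h7.trans (le_of_eq ?_)
          rw [mul_pow, sq_abs, sq_abs]
          field_simp
        · have : deriv chi (c * y 0) = 0 := hM2 _ (not_le.1 hyS)
          rw [this]
          simp only [mul_zero, norm_zero]
          have h5 : 0 ≤ (Ac r r1).indicator (S.indicator (fun y => b 0 y ^ 2)) y :=
            indicator_nonneg (fun _ _ => indicator_nonneg (fun _ _ => sq_nonneg _) _) _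
          have h6 : 0 ≤ T.indicator (fun y => φ y ^ 2) y :=
            indicator_nonneg (fun _ _ => sq_nonneg _) _
          positivity
      · rw [h0 y hy hA]
        simp only [mul_zero, zero_mul, norm_zero]
        have h5 : 0 ≤ (Ac r r1).indicator (S.indicator (fun y => b 0 y ^ 2)) y :=
          indicator_nonneg (fun _ _ => indicator_nonneg (fun _ _ => sq_nonneg _) _) _
        have h6 : 0 ≤ T.indicator (fun y => φ y ^ 2) y :=
          indicator_nonneg (fun _ _ => sq_nonneg _) _
        positivity
    have hAU : (Ac r r1 : Set (E' n)) ⊆ Uo r := fun y hy => hy.1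
    have i1 : IntegrableOn ((Ac r r1).indicator (S.indicator (fun y => b 0 y ^ 2))) (Uo r) := by
      rw [integrableOn_indicator_iff (meas_Ac r r1), inter_eq_self_of_subset_left hAU]
      exact Integrable.indicator hb2 hSm
    have i2 : IntegrableOn (T.indicator (fun y => φ y ^ 2)) (Uo r) := by
      rw [integrableOn_indicator_iff hTm]
      exact hφ2.mono_set inter_subset_right
    have e1 : ∫ y in Uo r, (Ac r r1).indicator (S.indicator (fun y => b 0 y ^ 2)) y =
        ∫ y in Ac r r1, S.indicator (fun y => b 0 y ^ 2) y := by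
      rw [setIntegral_indicator (meas_Ac r r1), inter_eq_self_of_subset_right hAU]
    have e2 : ∫ y in Uo r, T.indicator (fun y => φ y ^ 2) y ≤ K' * (3 / c) ^ 2 := by
      rw [setIntegral_indicator hTm]
      refine (hK (3 / c) (by positivity)).trans ?_
      gcongr
      exact le_max_left _ _
    have h2 : |∫ y in Uo r, b 0 y * φ y * (c * deriv chi (c * y 0))| ≤
        ∫ y in Uo r, (M / 2 * lam * (Ac r r1).indicator (S.indicator (fun y => b 0 y ^ 2)) y +
          M / 2 / lam * c ^ 2 * T.indicator (fun y => φ y ^ 2) y) := by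
      rw [← Real.norm_eq_abs]
      refine norm_integral_le_of_norm_le ((i1.const_mul _).add (i2.const_mul _)) ?_
      exact (ae_restrict_iff' hUm).2 (Filter.Eventually.of_forall hb1)
    rw [integral_add (i1.const_mul _) (i2.const_mul _), integral_const_mul, integral_const_mul,
      e1] at h2
    have h3 : M / 2 / lam * c ^ 2 * ∫ y in Uo r, T.indicator (fun y => φ y ^ 2) y ≤ ε / 2 := by
      have h4 : M / 2 / lam * c ^ 2 * ∫ y in Uo r, T.indicator (fun y => φ y ^ 2) y ≤
          M / 2 / lam * c ^ 2 * (K' * (3 / c) ^ 2) := by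
        gcongr
      refine h4.trans ?_
      have h5 : M / 2 / lam * c ^ 2 * (K' * (3 / c) ^ 2) = (9 * K' * M / lam) / 2 := by
        field_simp
        ring
      rw [h5]
      have h6 : 9 * K' * M / lam ≤ ε := by
        rw [div_le_iff₀ hlam0, hlam, mul_add, mul_div_cancel₀ _ hε.ne']
        linarith
      linarith
    have h4 := (le_abs_self _).trans_lt h1
    linarith
  have h1 : Tendsto (fun k : ℕ => ∫ y in Uo r, (∑ i, pt i (fun z => b i z * φ z) y) *
      chi ((k + 1) * y 0)) atTop (𝓝 0) := by
    simp only [key]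
    exact hR
  exact tendsto_nhds_unique hL h1

end Vale.Agent.P088.R2.H558.DM
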